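import Vale.Agent.P088.R2.H676.C.Te

/-!
# P088, zone B1: the row CORE

`T = teD (F.dat E₀ hE l φ cl cφ)` is the model `W = E |q|² / 2 + φ(p)`, `E = E₀ e^{2 l(p)}`, `l`, `φ`
convex; `b`, `c` are test functions, `n ≥ 3`.
-/

set_option linter.unusedSectionVars false

open MeasureTheory Set
open scoped ContDiff

noncomputable section

namespace Vale.Agent.P088.R2.H676.C

open Vale.Agent.P088.HY.H593W
open Vale.Agent.P088.HY.H593W.Osc
open Vale.Agent.P088.R2.H961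
open Vale.Agent.P088.R2.H961.S
open Vale.Agent.P088.R2.H464
open Vale.Agent.P088.R2.H961.B (nn)

variable {ι E P : Type} [Fintype ι] [DecidableEq ι] [NormedAddCommGroup E] [NormedSpace ℝ E]
  [NormedAddCommGroup P] [NormedSpace ℝ P] {π : E →L[ℝ] P}

/-! ## Supports -/

theorem D_off (T : EP.Dat ι E) (k : ι) (c : EP.TE E) {z : E} (hz : z ∉ tsupport c.fn) :
    (T.D k c).fn z = 0 := by
  have h1 : c.fn z = 0 := image_eq_zero_of_notMem_tsupport hz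
  have h2 : fderiv ℝ c.fn z = 0 := by
    have h3 : c.fn =ᶠ[nhds z] fun _ => 0 := notMem_tsupport_iff_eventuallyEq.1 hz
    rw [h3.fderiv_eq]
    exact fderiv_const_apply 0
  change fderiv ℝ c.fn z (T.a k) + ((T.e * T.q k : EP.Sm E) : E → ℝ) z * c.fn z = 0
  rw [h1, h2]
  simp

variable [MeasurableSpace E] [BorelSpace E] [FiniteDimensional ℝ E]
  (μ : Measure E) [μ.IsAddHaarMeasure]

theorem tnn_mono {θ θ' : EP.Sm E} (f : EP.TE E)
    (h : ∀ z, f.fn z ≠ 0 → (θ : E → ℝ) z ≤ (θ' : E → ℝ) z) : B.T.nn μ θ f ≤ B.T.nn μ θ' f := by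
  rw [B.T.nn_In, B.T.nn_In]
  refine B.T.In_mono μ fun z => ?_
  change (θ : E → ℝ) z * f.fn z * f.fn z ≤ (θ' : E → ℝ) z * f.fn z * f.fn z
  by_cases hz : f.fn z = 0
  · rw [hz]; simp
  · nlinarith [mul_self_nonneg (f.fn z), h z hz, mul_le_mul_of_nonneg_right (h z hz)
      (mul_self_nonneg (f.fn z))]

theorem tnn_smul (r : ℝ) (f : EP.Sm E) (x : EP.TE E) : B.T.nn μ (r • f) x = r * B.T.nn μ f x := by
  rw [B.T.nn, B.T.nn, map_smul, LinearMap.smul_apply, map_smul, LinearMap.smul_apply, smul_eq_mul]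

variable (F : Fram ι π)

section
variable (hn : 3 ≤ Fintype.card ι) (E₀ : ℝ) (hE : 0 < E₀) (l φ : P → ℝ)
  (cl : ContDiff ℝ ∞ l) (cφ : ContDiff ℝ ∞ φ)

/-- The model on test functions. -/
abbrev tD : EP.Dat ι E := teD (F.dat E₀ hE l φ cl cφ)

/-- The margin of the core on test functions (`lam ≤ |l'|²`). -/
def M0 (T : EP.Dat ι E) (lam : ℝ) (b c : EP.TE E) : ℝ :=
  ∑ j, B.T.nn μ T.e (T.Ds j b + (1 / 2 : ℝ) • T.vs j c) + B.T.nn μ (T.e * T.e) b +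
    lam * (∑ k, B.T.nn μ 1 (T.D k c) + B.T.nn μ (T.e * T.e * T.qq) c + B.T.nn μ T.e c)

/-- `|φ' + 2 l'|²`. -/
def tG2 (T : EP.Dat ι E) : EP.Sm E :=
  ∑ j, (T.φ1 j + (2 : ℝ) • T.l1 j) * (T.φ1 j + (2 : ℝ) • T.l1 j)

variable
  (pl : ∀ z (x : ι → ℝ), 0 ≤ ∑ i, ∑ j, ((tD F E₀ hE l φ cl cφ).l2 i j : E → ℝ) z * x i * x j)
  (pφ : ∀ z (x : ι → ℝ), 0 ≤ ∑ i, ∑ j, ((tD F E₀ hE l φ cl cφ).φ2 i j : E → ℝ) z * x i * x j)

include hn pl pφ

omit hn pl pφ in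
theorem M0_le {lam : ℝ} (b c : EP.TE E)
    (hl : ∀ z ∈ tsupport c.fn, lam ≤ ∑ j, ((tD F E₀ hE l φ cl cφ).l1 j : E → ℝ) z ^ 2) :
    M0 μ (tD F E₀ hE l φ cl cφ) lam b c ≤
      Mg0 μ (F.dat E₀ hE l φ cl cφ) (emb π b) (emb π c) := by
  set S := F.dat E₀ hE l φ cl cφ with hS
  set T := tD F E₀ hE l φ cl cφ with hT
  have he : ∀ z, 0 ≤ (S.e : E → ℝ) z := dat_e F E₀ hE l φ cl cφ
  have hom := te_hom μ S
  have e1 : ∀ j, nn μ S.e (ee (S.osc μ) j (emb π b) (emb π c)) =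
      B.T.nn μ T.e (T.Ds j b + (1 / 2 : ℝ) • T.vs j c) := by
    intro j
    rw [← hom.ee j b c, te_nn]; rfl
  have e2 : nn μ (S.e * S.e) (emb π b) = B.T.nn μ (T.e * T.e) b := by
    rw [te_nn, map_mul]; rfl
  have hL : ∀ z ∈ tsupport c.fn, lam ≤ (lam2 S : E → ℝ) z := by
    intro z hz
    refine (hl z hz).trans (le_of_eq ?_)
    rw [lam2]
    simp only [AddSubmonoidClass.coe_finsetSum, MulMemClass.coe_mul, Finset.sum_apply,
      Pi.mul_apply, sq]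
    rfl
  have hc : ∀ z, c.fn z ≠ 0 → z ∈ tsupport c.fn := fun z hz => subset_tsupport _ hz
  have e3 : ∀ k, lam * B.T.nn μ 1 (T.D k c) ≤ nn μ (lam2 S) (S.D k (emb π c)) := by
    intro k
    rw [← cor_D S k c, te_nn, ← tnn_smul]
    refine tnn_mono μ _ fun z hz => ?_
    have hz' : z ∈ tsupport c.fn := by
      by_contra hne
      exact hz (D_off T k c hne)
    have := hL z hz'
    change lam * 1 ≤ (lam2 S : E → ℝ) z
    linarith
  have e4 : lam * B.T.nn μ (T.e * T.e * T.qq) c ≤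
      nn μ (lam2 S * (S.e * S.e * S.qq)) (emb π c) := by
    rw [te_nn, ← tnn_smul]
    refine tnn_mono μ _ fun z hz => ?_
    have h1 := hL z (hc z hz)
    have h2 : ((T.qq : EP.Sm E) : E → ℝ) z = (S.qq : E → ℝ) z := by
      rw [te_qq]; rfl
    change lam * ((S.e : E → ℝ) z * (S.e : E → ℝ) z * ((T.qq : EP.Sm E) : E → ℝ) z) ≤
      (lam2 S : E → ℝ) z * ((S.e : E → ℝ) z * (S.e : E → ℝ) z * (S.qq : E → ℝ) z)
    rw [h2]
    exact mul_le_mul_of_nonneg_right h1 (mul_nonneg (mul_self_nonneg _) (qq_nonneg S z))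
  have e5 : lam * B.T.nn μ T.e c ≤ nn μ (S.e * lam2 S) (emb π c) := by
    rw [te_nn, ← tnn_smul]
    refine tnn_mono μ _ fun z hz => ?_
    have h1 := hL z (hc z hz)
    change lam * (S.e : E → ℝ) z ≤ (S.e : E → ℝ) z * (lam2 S : E → ℝ) z
    have := mul_le_mul_of_nonneg_left h1 (he z)
    linarith
  have e6 : lam * ∑ k, B.T.nn μ 1 (T.D k c) ≤ ∑ k, nn μ (lam2 S) (S.D k (emb π c)) := by
    rw [Finset.mul_sum]
    exact Finset.sum_le_sum fun k _ => e3 k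
  rw [M0, Mg0]
  simp only [e1, e2]
  linarith

/-- **(CORE)** for test functions, with the remainder `Nm`. -/
theorem core_TEf {lam : ℝ} (b c : EP.TE E)
    (hl : ∀ z ∈ tsupport c.fn, lam ≤ ∑ j, ((tD F E₀ hE l φ cl cφ).l1 j : E → ℝ) z ^ 2) :
    ∃ f : SW π, ((F.dat E₀ hE l φ cl cφ).osc μ).B2 f = emb π c ∧
      (1 / 12) * M0 μ (tD F E₀ hE l φ cl cφ) lam b c +
      2 / 3 * ((Fintype.card ι : ℝ) - 2) * (B.T.nn μ ((tD F E₀ hE l φ cl cφ).e *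
        ∑ j, (tD F E₀ hE l φ cl cφ).φ1 j * (tD F E₀ hE l φ cl cφ).l1 j) c +
        Nm ((F.dat E₀ hE l φ cl cφ).osc μ) (fun i => ml ((F.dat E₀ hE l φ cl cφ).φ1 i)) f) ≤
      ((tD F E₀ hE l φ cl cφ).osc μ).Q b c := by
  obtain ⟨f, -, hf⟩ := b2_osc F μ hn E₀ hE l φ cl cφ c.cd c.cs
  refine ⟨f, hf, ?_⟩
  have q5 := M0_le μ F E₀ hE l φ cl cφ b c hl
  set S := F.dat E₀ hE l φ cl cφ with hS
  set T := tD F E₀ hE l φ cl cφ with hT
  have hf' : (S.osc μ).B2 f = emb π c := hf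
  have k1 := core_int μ S hn (dat_e F E₀ hE l φ cl cφ) pl pφ (emb π b) f
  rw [hf'] at k1
  have q1 : (S.osc μ).Q (emb π b) (emb π c) = (T.osc μ).Q b c := (te_hom μ S).Q b c
  have q2 : nn μ (S.e * kap S) (emb π c) = B.T.nn μ (T.e * ∑ j, T.φ1 j * T.l1 j) c := by
    rw [te_nn, map_mul]
    congr 2
    rw [kap, map_sum]
    exact Finset.sum_congr rfl fun j _ => map_mul _ _ _
  rw [q2] at k1
  rw [← q1]
  linarith

/-- **(CORE)** for test functions, without the `N`-term. -/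
theorem core_TE0 {lam : ℝ} (b c : EP.TE E)
    (hl : ∀ z ∈ tsupport c.fn, lam ≤ ∑ j, ((tD F E₀ hE l φ cl cφ).l1 j : E → ℝ) z ^ 2) :
    (1 / 12) * M0 μ (tD F E₀ hE l φ cl cφ) lam b c +
      2 / 3 * ((Fintype.card ι : ℝ) - 2) * B.T.nn μ ((tD F E₀ hE l φ cl cφ).e *
        ∑ j, (tD F E₀ hE l φ cl cφ).φ1 j * (tD F E₀ hE l φ cl cφ).l1 j) c ≤
      ((tD F E₀ hE l φ cl cφ).osc μ).Q b c := by
  obtain ⟨f, -, h⟩ := core_TEf μ F hn E₀ hE l φ cl cφ pl pφ b c hl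
  have h3 : (3 : ℝ) ≤ Fintype.card ι := by exact_mod_cast hn
  have P := (F.dat E₀ hE l φ cl cφ).osc_pos μ (dat_e F E₀ hE l φ cl cφ)
  have h1 : 0 ≤ Nm ((F.dat E₀ hE l φ cl cφ).osc μ)
      (fun i => ml ((F.dat E₀ hE l φ cl cφ).φ1 i)) f :=
    Finset.sum_nonneg fun j _ => M_nonneg P (by omega) _
  have h2 := mul_nonneg (by linarith : (0 : ℝ) ≤ 2 / 3 * ((Fintype.card ι : ℝ) - 2)) h1
  linarith

/-- **(CORE)** in the form of the black box of zone B1. -/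
theorem core_box {lam : ℝ} (h0 : 0 < lam) (b c : EP.TE E)
    (hl : ∀ z ∈ tsupport c.fn, lam ≤ ∑ j, ((tD F E₀ hE l φ cl cφ).l1 j : E → ℝ) z ^ 2)
    (hk : ∀ z ∈ tsupport c.fn, 0 ≤ ∑ j, ((tD F E₀ hE l φ cl cφ).φ1 j : E → ℝ) z *
      ((tD F E₀ hE l φ cl cφ).l1 j : E → ℝ) z) :
    min 1 lam / 12 * (∑ j, B.T.nn μ (tD F E₀ hE l φ cl cφ).e
        ((tD F E₀ hE l φ cl cφ).Ds j b + (1 / 2 : ℝ) • (tD F E₀ hE l φ cl cφ).vs j c) +
      B.T.nn μ ((tD F E₀ hE l φ cl cφ).e * (tD F E₀ hE l φ cl cφ).e) b +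
      ∑ k, B.T.nn μ 1 ((tD F E₀ hE l φ cl cφ).D k c) +
      B.T.nn μ (tD F E₀ hE l φ cl cφ).e c) ≤ ((tD F E₀ hE l φ cl cφ).osc μ).Q b c := by
  have h := core_TE0 μ F hn E₀ hE l φ cl cφ pl pφ b c hl
  have he : ∀ z, 0 ≤ ((tD F E₀ hE l φ cl cφ).e : E → ℝ) z := dat_e F E₀ hE l φ cl cφ
  set T := tD F E₀ hE l φ cl cφ with hT
  have n0 : ∀ {θ : EP.Sm E} (x : EP.TE E), (∀ z, 0 ≤ (θ : E → ℝ) z) → 0 ≤ B.T.nn μ θ x := by
    intro θ x hθ
    have := tnn_mono μ (θ := 0) (θ' := θ) x fun z _ => hθ z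
    have e0 : B.T.nn μ (0 : EP.Sm E) x = 0 := by
      rw [B.T.nn, map_zero, LinearMap.zero_apply, map_zero, LinearMap.zero_apply]
    rwa [e0] at this
  have a1 : 0 ≤ ∑ j, B.T.nn μ T.e (T.Ds j b + (1 / 2 : ℝ) • T.vs j c) :=
    Finset.sum_nonneg fun j _ => n0 _ he
  have a2 : 0 ≤ B.T.nn μ (T.e * T.e) b := n0 _ fun z => mul_self_nonneg _
  have a3 : 0 ≤ ∑ k, B.T.nn μ 1 (T.D k c) := Finset.sum_nonneg fun j _ => n0 _ fun z => zero_le_one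
  have a4 : 0 ≤ B.T.nn μ T.e c := n0 _ he
  have a5 : 0 ≤ B.T.nn μ (T.e * T.e * T.qq) c := n0 _ fun z => by
    have h2 : ((T.qq : EP.Sm E) : E → ℝ) z = ((F.dat E₀ hE l φ cl cφ).qq : E → ℝ) z := by
      rw [te_qq]; rfl
    change 0 ≤ (T.e : E → ℝ) z * (T.e : E → ℝ) z * ((T.qq : EP.Sm E) : E → ℝ) z
    rw [h2]
    exact mul_nonneg (mul_self_nonneg _) (qq_nonneg _ z)
  have a6 : 0 ≤ B.T.nn μ (T.e * ∑ j, T.φ1 j * T.l1 j) c := by
    have := tnn_mono μ (θ := 0) (θ' := T.e * ∑ j, T.φ1 j * T.l1 j) c fun z hz => by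
      have h1 := mul_nonneg (he z) (hk z (subset_tsupport _ hz))
      have h2 : ((∑ j, T.φ1 j * T.l1 j : EP.Sm E) : E → ℝ) z =
          ∑ j, (T.φ1 j : E → ℝ) z * (T.l1 j : E → ℝ) z := by
        simp only [AddSubmonoidClass.coe_finsetSum, MulMemClass.coe_mul, Finset.sum_apply,
          Pi.mul_apply]
      change 0 ≤ (T.e : E → ℝ) z * ((∑ j, T.φ1 j * T.l1 j : EP.Sm E) : E → ℝ) z
      rw [h2]
      exact h1
    have e0 : B.T.nn μ (0 : EP.Sm E) c = 0 := by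
      rw [B.T.nn, map_zero, LinearMap.zero_apply, map_zero, LinearMap.zero_apply]
    rwa [e0] at this
  have h3 : (3 : ℝ) ≤ Fintype.card ι := by exact_mod_cast hn
  have h4 := mul_nonneg (by linarith : (0 : ℝ) ≤ 2 / 3 * ((Fintype.card ι : ℝ) - 2)) a6
  have m1 : min 1 lam ≤ 1 := min_le_left _ _
  have m2 : min 1 lam ≤ lam := min_le_right _ _
  have b1 := mul_le_mul_of_nonneg_right m1 a1
  have b2 := mul_le_mul_of_nonneg_right m1 a2
  have b3 := mul_le_mul_of_nonneg_right m2 a3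
  have b4 := mul_le_mul_of_nonneg_right m2 a4
  have b5 := mul_nonneg h0.le a5
  rw [M0] at h
  linarith

/-- **(CORE)** for test functions, with the `N`-term. -/
theorem core_TE {lam : ℝ} (b c : EP.TE E)
    (hl : ∀ z ∈ tsupport c.fn, lam ≤ ∑ j, ((tD F E₀ hE l φ cl cφ).l1 j : E → ℝ) z ^ 2)
    {t : EP.Sm E} (ht : t * (1 + (tD F E₀ hE l φ cl cφ).e * (tD F E₀ hE l φ cl cφ).qq) = 1) :
    (1 / 12) * M0 μ (tD F E₀ hE l φ cl cφ) lam b c +
      2 / 3 * ((Fintype.card ι : ℝ) - 2) * B.T.nn μ ((tD F E₀ hE l φ cl cφ).e *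
        ∑ j, (tD F E₀ hE l φ cl cφ).φ1 j * (tD F E₀ hE l φ cl cφ).l1 j) c +
      2 / 3 * ((Fintype.card ι : ℝ) - 2) / ((Fintype.card ι : ℝ) + 88) *
        (B.T.nn μ ((tD F E₀ hE l φ cl cφ).e * t * tG2 (tD F E₀ hE l φ cl cφ)) c -
          2 / ((Fintype.card ι : ℝ) + 88) * B.T.nn μ ((tD F E₀ hE l φ cl cφ).e' * (t * t * t) *
            tG2 (tD F E₀ hE l φ cl cφ)) ((tD F E₀ hE l φ cl cφ).D2 c)) ≤
      ((tD F E₀ hE l φ cl cφ).osc μ).Q b c := by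
  obtain ⟨f, hf, k1⟩ := core_TEf μ F hn E₀ hE l φ cl cφ pl pφ b c hl
  set S := F.dat E₀ hE l φ cl cφ with hS
  set T := tD F E₀ hE l φ cl cφ with hT
  have he : ∀ z, 0 ≤ (S.e : E → ℝ) z := dat_e F E₀ hE l φ cl cφ
  obtain ⟨s, hs⟩ := exists_inv (π := π) (1 + S.e * S.qq) (fun z => by
    have := mul_nonneg (he z) (qq_nonneg S z)
    change 1 ≤ 1 + (S.e : E → ℝ) z * (S.qq : E → ℝ) z
    linarith)
  have hst : sm π s = t := by
    have h1 : sm π s * (1 + T.e * T.qq) = 1 := by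
      have h2 := congrArg (sm π) hs
      rw [map_mul, map_add, map_one, map_mul, ← te_qq] at h2
      exact h2
    calc sm π s = sm π s * (t * (1 + T.e * T.qq)) := by rw [ht, mul_one]
      _ = (sm π s * (1 + T.e * T.qq)) * t := by ring
      _ = t := by rw [h1, one_mul]
  have k2 := N_term μ S hs he hn f
  rw [hf] at k2
  have g2 : sm π (G2 S) = tG2 T := by
    rw [G2, map_sum]
    refine Finset.sum_congr rfl fun j _ => ?_
    rw [map_mul, map_add, map_smul]; rfl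
  have q3 : nn μ (S.e * s * G2 S) (emb π c) = B.T.nn μ (T.e * t * tG2 T) c := by
    rw [te_nn, map_mul, map_mul, g2, hst]; rfl
  have q4 : nn μ (S.e' * (s * s * s) * G2 S) (S.D2 (emb π c)) =
      B.T.nn μ (T.e' * (t * t * t) * tG2 T) (T.D2 c) := by
    rw [← cor_D2 S c, te_nn, map_mul, map_mul, map_mul, map_mul, g2, hst]; rfl
  rw [q3, q4] at k2
  have h3 : (3 : ℝ) ≤ Fintype.card ι := by exact_mod_cast hn
  set N : ℝ := (Fintype.card ι : ℝ) + 88 with hN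
  have hNp : 0 < N := by rw [hN]; linarith
  have h4 : 2 / 3 * ((Fintype.card ι : ℝ) - 2) / N *
        (B.T.nn μ (T.e * t * tG2 T) c - 2 / N * B.T.nn μ (T.e' * (t * t * t) * tG2 T) (T.D2 c)) ≤
      2 / 3 * ((Fintype.card ι : ℝ) - 2) * Nm (S.osc μ) (fun i => ml (S.φ1 i)) f := by
    have h5 : B.T.nn μ (T.e * t * tG2 T) c -
        2 / N * B.T.nn μ (T.e' * (t * t * t) * tG2 T) (T.D2 c) ≤
        N * Nm (S.osc μ) (fun i => ml (S.φ1 i)) f := by linarith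
    have h6 : 0 ≤ 2 / 3 * ((Fintype.card ι : ℝ) - 2) / N :=
      div_nonneg (by linarith) hNp.le
    refine (mul_le_mul_of_nonneg_left h5 h6).trans (le_of_eq ?_)
    field_simp
  linarith

/-- The convexity terms are nonnegative. -/
theorem cv_TE (c : EP.TE E) : 0 ≤ ((tD F E₀ hE l φ cl cφ).osc μ).cv c := by
  have h := cv_nonneg μ (F.dat E₀ hE l φ cl cφ) (dat_e F E₀ hE l φ cl cφ) pl pφ (emb π c)
  have hom := te_hom μ (F.dat E₀ hE l φ cl cφ)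
  rw [hom.cv] at h
  exact h

end

end Vale.Agent.P088.R2.H676.C
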