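import Vale.Agent.P088.R2.H676.C.Mar

/-!
# P088, local step: the core inequality, abstract form
-/

set_option linter.unusedSectionVars false

noncomputable section

namespace Vale.Agent.P088.R2.H676.C

open Finset
open Vale.Agent.P088.HY.H593W
open Vale.Agent.P088.HY.H593W.Osc

variable {ι F : Type*} [Fintype ι] [DecidableEq ι] [AddCommGroup F] [Module ℝ F]

/-- `e_j = D_j^* b + v_j^* c / 2`. -/
def ee (A : Osc ι F) (j : ι) (b c : F) : F := A.Ds j b + (1 / 2 : ℝ) • A.vs j c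

/-- The `c`-part of the margin. -/
def Cm (A : Osc ι F) (f1 : ι → F →ₗ[ℝ] F) (c : F) : ℝ :=
  ∑ j, (A.ip (A.E (Gj A f1 j c)) (A.L j c) + (1 / 4) * A.ip (A.B2 (A.L j c)) (A.L j c))

/-- The part `⟨E² B2 G_j f, G_j f⟩` of the margin. -/
def Nm (A : Osc ι F) (f1 : ι → F →ₗ[ℝ] F) (f : F) : ℝ :=
  ∑ j, A.ip (A.E (A.E (A.B2 (Gj A f1 j f)))) (Gj A f1 j f)

variable {A : Osc ι F} {f1 : ι → F →ₗ[ℝ] F} {Ph : ι → ι → F →ₗ[ℝ] F} {Ei : F →ₗ[ℝ] F}

theorem EDDs (b : F) : ∑ j, A.ip (A.E (A.Ds j b)) (A.Ds j b) =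
    A.ip (A.E (A.BB b)) b + (Fintype.card ι : ℝ) * A.ip (A.E b) (A.E b) := by
  have h1 : ∀ j, A.ip (A.E (A.Ds j b)) (A.Ds j b) =
      A.ip (A.E (A.Ds j (A.D j b))) b + 2 * A.ip (A.E b) (A.E b) := by
    intro j
    rw [← A.adD, ← A.ED, A.DDs, if_pos rfl, map_add, map_smul, map_add, map_smul,
      LinearMap.add_apply, LinearMap.smul_apply, smul_eq_mul, A.adE (A.E b)]
  rw [sum_congr rfl fun j _ => h1 j, sum_add_distrib, sum_const, card_univ, nsmul_eq_mul,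
    BB_apply, map_add, map_smul, map_add, map_smul, LinearMap.add_apply, LinearMap.smul_apply,
    smul_eq_mul, A.adE (A.E b), N_apply, map_sum, map_sum, LinearMap.sum_apply]
  ring

/-- `8 ∑ |e_j|² = Q + 8 n |E b|²`. -/
theorem Q_ee (b c : F) : 8 * ∑ j, A.ip (A.E (ee A j b c)) (ee A j b c) =
    A.Q b c + 8 * (Fintype.card ι : ℝ) * A.ip (A.E b) (A.E b) := by
  have h1 : ∀ j, A.ip (A.E (ee A j b c)) (ee A j b c) = A.ip (A.E (A.Ds j b)) (A.Ds j b) +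
      A.ip (A.E (A.Ds j b)) (A.vs j c) + (1 / 4) * A.ip (A.E (A.vs j c)) (A.vs j c) := by
    intro j
    have e : A.ip (A.E (A.vs j c)) (A.Ds j b) = A.ip (A.E (A.Ds j b)) (A.vs j c) := by
      rw [A.adE, A.symm]
    simp only [ee, map_add, map_smul, LinearMap.add_apply, LinearMap.smul_apply, smul_eq_mul, e]
    ring
  rw [sum_congr rfl fun j _ => h1 j, sum_add_distrib, sum_add_distrib, EDDs, ← mul_sum, Q]
  ring

section
variable (P : A.Pos) (hn : 3 ≤ Fintype.card ι) (hF : Fd A f1 Ph) (h : A.Inv Ei)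
variable (hPh : A.PM Ph) (hLL : A.PM A.LL)
  (hC : ∀ i j x, A.E (A.C i j x) = (2 : ℝ) • A.E (Ph i j x) + A.LL i j (A.BB x))
include P hn hPh hLL hC

theorem ee_le (b f : F) : 8 * ((Fintype.card ι : ℝ) - 2) *
    ∑ j, A.ip (A.E (ee A j b (A.B2 f))) (ee A j b (A.B2 f)) ≤
      (3 * (Fintype.card ι : ℝ) - 2) * A.Q b (A.B2 f) := by
  have h1 := Q_ee (A := A) b (A.B2 f)
  have h2 := Q_stable P (by omega) hPh hLL hC b f
  have h3 : (3 : ℝ) ≤ Fintype.card ι := by exact_mod_cast hn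
  nlinarith

include hF h

/-- **The core inequality.** -/
theorem core (b f : F) :
    ((Fintype.card ι : ℝ) - 2) * (8 / (3 * (Fintype.card ι : ℝ) - 2) *
      ∑ j, A.ip (A.E (ee A j b (A.B2 f))) (ee A j b (A.B2 f)) +
      4 * A.ip (A.E b) (A.E b) + 2 * Cm A f1 (A.B2 f) + 2 * Nm A f1 f +
      2 * A.gP Ph f + A.gL f) ≤ 3 * A.Q b (A.B2 f) := by
  have h1 := ee_le P hn hPh hLL hC b f
  have h2 := Q_stable P (by omega) hPh hLL hC b f
  have h4 := Q_lower2 P (by omega) hF h hPh hLL hC b f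
  have h5 : 0 ≤ ∑ i, ∑ j, A.ip (A.E (A.BB (A.D i (A.w j f) - A.D j (A.w i f))))
        (A.D i (A.w j f) - A.D j (A.w i f)) :=
    sum_nonneg fun i _ => sum_nonneg fun j _ => P.EBB0 _
  have h6 := P.EBB0 (b + (1 / 2 : ℝ) • A.vsD f)
  have h7 : ∑ j, A.ip (A.E (A.E (A.B2 (Sg A f1 Ei j f)))) (Sg A f1 Ei j f) =
      Nm A f1 f + Cm A f1 (A.B2 f) := by
    rw [Nm, Cm, ← sum_add_distrib]
    exact sum_congr rfl fun j _ => by rw [Sg_sq hF h j f]; ring
  rw [h7] at h4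
  have h3 : (3 : ℝ) ≤ Fintype.card ι := by exact_mod_cast hn
  have h8 : (0 : ℝ) < 3 * (Fintype.card ι : ℝ) - 2 := by linarith
  have h9 : ((Fintype.card ι : ℝ) - 2) * (8 / (3 * (Fintype.card ι : ℝ) - 2) *
      ∑ j, A.ip (A.E (ee A j b (A.B2 f))) (ee A j b (A.B2 f))) ≤ A.Q b (A.B2 f) := by
    have e : ((Fintype.card ι : ℝ) - 2) * (8 / (3 * (Fintype.card ι : ℝ) - 2) *
      ∑ j, A.ip (A.E (ee A j b (A.B2 f))) (ee A j b (A.B2 f))) =
      (8 * ((Fintype.card ι : ℝ) - 2) *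
        ∑ j, A.ip (A.E (ee A j b (A.B2 f))) (ee A j b (A.B2 f))) /
        (3 * (Fintype.card ι : ℝ) - 2) := by
      field_simp
    rw [e, div_le_iff₀ h8]
    linarith
  linarith

end

section
variable (P : A.Pos) (hn : 3 ≤ Fintype.card ι)
include P hn

/-- Lower bound of `⟨E² B2 x, x⟩` by test functions `ψ`. -/
theorem M_test (x ψ : F) : 2 * A.ip (A.E (A.E (A.B2 x))) ψ - A.ip (A.E (A.E (A.B2 ψ))) ψ ≤
    A.ip (A.E (A.E (A.B2 x))) x := by
  have h0 := M_nonneg P (by omega) (x - ψ)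
  have e0 : A.ip (A.E (A.E (A.B2 (x - ψ)))) (x - ψ) = A.ip (A.E (A.E (A.B2 x))) x -
      2 * A.ip (A.E (A.E (A.B2 x))) ψ + A.ip (A.E (A.E (A.B2 ψ))) ψ := by
    simp only [map_sub, LinearMap.sub_apply]
    rw [symM ψ x]; ring
  linarith

omit P hn in
theorem B2_sq (x : F) : A.ip (A.B2 x) x = ∑ k, A.ip (A.D k x) (A.D k x) +
    ((Fintype.card ι : ℝ) - 2) * A.ip (A.E x) x := by
  rw [B2_apply, map_add, map_smul, LinearMap.add_apply, LinearMap.smul_apply, smul_eq_mul,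
    N_apply, map_sum, LinearMap.sum_apply]
  congr 1
  exact sum_congr rfl fun k _ => A.adDs k _ _

end

end Vale.Agent.P088.R2.H676.C
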