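import Vale.Agent.P088.R2.H676.C.Core

/-!
# Morphisms of the operator systems `Osc`
-/

set_option linter.unusedSectionVars false
set_option linter.dupNamespace false

noncomputable section

namespace Vale.Agent.P088.R2.H676.C

open Finset
open Vale.Agent.P088.HY.H593W
open Vale.Agent.P088.HY.H593W.Osc

variable {ι F G : Type*} [Fintype ι] [DecidableEq ι] [AddCommGroup F] [Module ℝ F]
  [AddCommGroup G] [Module ℝ G]

/-- `j` intertwines the operators and preserves the inner product. -/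
structure OH (A : Osc ι F) (B : Osc ι G) (j : F →ₗ[ℝ] G) : Prop where
  ip : ∀ x y, B.ip (j x) (j y) = A.ip x y
  D : ∀ i x, j (A.D i x) = B.D i (j x)
  Ds : ∀ i x, j (A.Ds i x) = B.Ds i (j x)
  v : ∀ i x, j (A.v i x) = B.v i (j x)
  vs : ∀ i x, j (A.vs i x) = B.vs i (j x)
  L : ∀ i x, j (A.L i x) = B.L i (j x)
  LL : ∀ i k x, j (A.LL i k x) = B.LL i k (j x)
  C : ∀ i k x, j (A.C i k x) = B.C i k (j x)
  E : ∀ x, j (A.E x) = B.E (j x)

namespace OH

variable {A : Osc ι F} {B : Osc ι G} {j : F →ₗ[ℝ] G} (h : OH A B j)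
include h

theorem N (x : F) : j (A.N x) = B.N (j x) := by
  simp only [N_apply, map_sum, h.Ds, h.D]

theorem BB (x : F) : j (A.BB x) = B.BB (j x) := by
  simp only [BB_apply, map_add, map_smul, h.N, h.E]

theorem B2 (x : F) : j (A.B2 x) = B.B2 (j x) := by
  simp only [B2_apply, map_add, map_smul, h.N, h.E]

theorem D2 (x : F) : j (A.D2 x) = B.D2 (j x) := by
  simp only [D2_apply, map_sum, h.D]

theorem LS (x : F) : j (A.LS x) = B.LS (j x) := by
  simp only [LS_apply, map_sum, h.L, h.Ds]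

theorem LDD (x : F) : j (A.LDD x) = B.LDD (j x) := by
  simp only [LDD_apply, map_sum, h.L, h.D]

theorem Q (b c : F) : B.Q (j b) (j c) = A.Q b c := by
  simp only [Osc.Q, ← h.BB, ← h.E, ← h.Ds, ← h.vs, h.ip]

theorem cv (c : F) : B.cv (j c) = A.cv c := by
  simp only [Osc.cv, ← h.D, ← h.C, ← h.LL, ← map_smul, ← map_add, h.ip]

theorem ee (i : ι) (b c : F) : j (C.ee A i b c) = C.ee B i (j b) (j c) := by
  simp only [C.ee, map_add, map_smul, h.Ds, h.vs]

theorem bp {Ei : F →ₗ[ℝ] F} {Ei' : G →ₗ[ℝ] G} (hE : ∀ x, j (Ei x) = Ei' (j x)) (b c : F) :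
    j (A.bp Ei b c) = B.bp Ei' (j b) (j c) := by
  simp only [Osc.bp, map_add, map_smul, hE, h.LS]

end OH

end Vale.Agent.P088.R2.H676.C
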