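import Vale.Agent.P088.R2.H676.C.Core
import Vale.Agent.P088.R2.H961.S.CoreI

/-!
# P088, local step: the core inequality for the model `W = E |q|² / 2 + φ(p)`
-/

set_option linter.unusedSectionVars false

open MeasureTheory Set
open scoped ContDiff

noncomputable section

namespace Vale.Agent.P088.R2.H676.C

open Vale.Agent.P088.HY.H593W
open Vale.Agent.P088.HY.H593W.Osc
open Vale.Agent.P088.R2.H961.S
open Vale.Agent.P088.R2.H961.B (nn)

variable {ι E P : Type} [Fintype ι] [DecidableEq ι] [NormedAddCommGroup E] [NormedSpace ℝ E]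
  [NormedAddCommGroup P] [NormedSpace ℝ P] {π : E →L[ℝ] P}

section
variable (S : Dat ι π)

theorem v_add (j : ι) : S.EE * (S.v j + S.vs j) =
    (2 : ℝ) • (S.EE * ml (S.φ1 j)) + S.L j * S.BB := by
  have h1 : S.K j + S.Ks j = (2 : ℝ) • ml (S.g j) := by
    rw [Dat.K, Dat.Ks, two_smul]; abel
  have h2 : S.EE * (S.L j * S.EI * S.D2) = S.L j * S.D2 := by
    have : S.EE * (S.L j * S.EI * S.D2) = S.L j * (S.EE * S.EI) * S.D2 := by
      have h0 : S.EE * S.L j = S.L j * S.EE := mlc _ _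
      rw [← mul_assoc, ← mul_assoc, h0]
      simp only [mul_assoc]
    rw [this, S.EE_EI, mul_one]
  have h3 : S.EE * (S.Ds2 * (S.L j * S.EI)) = S.L j * S.Ds2 := by
    have h0 : S.Ds2 * (S.L j * S.EI) = S.L j * S.EI * S.Ds2 := by
      have hp : ∀ k, ds (S.a k) (S.l1 j * S.e') = 0 := fun k => by
        rw [ds_mul, S.al1, S.ae']; simp
      have := S.Ds2_ml hp
      rwa [map_mul] at this
    have h4 : S.EE * (S.L j * S.EI * S.Ds2) = S.L j * (S.EE * S.EI) * S.Ds2 := by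
      have h0 : S.EE * S.L j = S.L j * S.EE := mlc _ _
      rw [← mul_assoc, ← mul_assoc, h0]
      simp only [mul_assoc]
    rw [h0, h4, S.EE_EI, mul_one]
  have h4 : S.EE * ml (S.g j) = S.EE * ml (S.φ1 j) + S.L j * ml (S.e * S.e * S.qq) := by
    rw [Dat.EE, Dat.L, ← map_mul, ← map_mul, ← map_mul, ← map_add, Dat.g]
    congr 1
    ring
  have h5 : (2 : ℝ) • (S.L j * ml (S.e * S.e * S.qq)) =
      (1 / 2 : ℝ) • (S.L j * (S.D2 + S.Ds2 + (2 : ℝ) • S.BB)) := by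
    rw [← S.qq_eq, mul_smul_comm, smul_smul]; norm_num
  have h6 : S.v j + S.vs j = (2 : ℝ) • ml (S.g j) - (1 / 2 : ℝ) • (S.L j * S.EI * S.D2) -
      (1 / 2 : ℝ) • (S.Ds2 * (S.L j * S.EI)) := by
    rw [← h1, Dat.v, Dat.vs]; abel
  rw [h6]
  simp only [mul_sub, mul_smul_comm, h2, h3, h4, smul_add, h5]
  simp only [mul_add, mul_smul_comm]
  module

theorem v_f (i j : ι) : S.v i * ml (S.φ1 j) = ml (S.φ1 j) * S.v i + S.PP i j := by
  have h1 : S.D2 * ml (S.φ1 j) = ml (S.φ1 j) * S.D2 := S.D2_ml (fun k => S.aφ1 k j)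
  have h2 : S.L i * ml (S.φ1 j) = ml (S.φ1 j) * S.L i := mlc _ _
  have h3 : S.EI * ml (S.φ1 j) = ml (S.φ1 j) * S.EI := mlc _ _
  have h4 : S.K i * ml (S.φ1 j) = ml (S.φ1 j) * S.K i + S.PP i j := S.K_ml i _
  rw [Dat.v, sub_mul, mul_sub, h4, smul_mul_assoc, mul_smul_comm, mul_assoc, h1,
    ← mul_assoc (S.L i * S.EI), mul_assoc (S.L i), h3, ← mul_assoc (S.L i), h2, mul_assoc,
    mul_assoc (ml (S.φ1 j)), mul_assoc]
  abel

end

variable [MeasurableSpace E] [BorelSpace E] [FiniteDimensional ℝ E]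
  (μ : Measure E) [μ.IsAddHaarMeasure]

section
variable (S : Dat ι π)

theorem osc_BB (x : SW π) : (S.osc μ).BB x = S.BB x := by
  rw [Osc.BB_apply, Osc.N_apply]
  rw [Dat.BB, LinearMap.add_apply, LinearMap.sum_apply]
  rfl

theorem fd : Fd (S.osc μ) (fun i => ml (S.φ1 i)) S.PP where
  ad i x y := adj_ml (μ := μ) (S.φ1 i) x y
  fD i j x := (LinearMap.congr_fun (S.D_ml (fun k => S.aφ1 k i) j) x).symm
  fDs i j x := (LinearMap.congr_fun (S.Ds_ml (fun k => S.aφ1 k i) j) x).symm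
  fE i x := Dat.mc S.e (S.φ1 i) x
  fL i j x := Dat.mc (S.φ1 i) (S.l1 j) x
  v i j x := LinearMap.congr_fun (v_f S j i) x
  vs j x := by
    rw [osc_BB]
    exact LinearMap.congr_fun (v_add S j) x

end

variable (F : Fram ι π)

section
variable (hn : 3 ≤ Fintype.card ι) (E₀ : ℝ) (hE : 0 < E₀) (l φ : P → ℝ)
  (cl : ContDiff ℝ ∞ l) (cφ : ContDiff ℝ ∞ φ)
  (pl : ∀ z (x : ι → ℝ), 0 ≤ ∑ i, ∑ j, ((F.dat E₀ hE l φ cl cφ).l2 i j : E → ℝ) z * x i * x j)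
  (pφ : ∀ z (x : ι → ℝ), 0 ≤ ∑ i, ∑ j, ((F.dat E₀ hE l φ cl cφ).φ2 i j : E → ℝ) z * x i * x j)
include hn pl pφ

/-- The core inequality for test functions, with all terms. -/
theorem core_full (b : SW π) {c : E → ℝ} (cc : ContDiff ℝ ∞ c) (sc : HasCompactSupport c) :
    ∃ f : SW π, (∀ z, π z ∉ π '' tsupport c → f.fn z = 0) ∧
      ((F.dat E₀ hE l φ cl cφ).osc μ).B2 f = tst c cc sc ∧
      ((Fintype.card ι : ℝ) - 2) * (8 / (3 * (Fintype.card ι : ℝ) - 2) *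
        ∑ j, ip μ ((F.dat E₀ hE l φ cl cφ).EE (ee ((F.dat E₀ hE l φ cl cφ).osc μ) j b (tst c cc sc)))
          (ee ((F.dat E₀ hE l φ cl cφ).osc μ) j b (tst c cc sc)) +
        4 * ip μ ((F.dat E₀ hE l φ cl cφ).EE b) ((F.dat E₀ hE l φ cl cφ).EE b) +
        2 * Cm ((F.dat E₀ hE l φ cl cφ).osc μ) (fun i => ml ((F.dat E₀ hE l φ cl cφ).φ1 i))
          (tst c cc sc) +
        2 * Nm ((F.dat E₀ hE l φ cl cφ).osc μ) (fun i => ml ((F.dat E₀ hE l φ cl cφ).φ1 i)) f +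
        2 * ((F.dat E₀ hE l φ cl cφ).osc μ).gP (F.dat E₀ hE l φ cl cφ).PP f +
        ((F.dat E₀ hE l φ cl cφ).osc μ).gL f) ≤
      3 * ((F.dat E₀ hE l φ cl cφ).osc μ).Q b (tst c cc sc) := by
  obtain ⟨f, h0, hf⟩ := b2_osc F μ hn E₀ hE l φ cl cφ cc sc
  refine ⟨f, h0, hf, ?_⟩
  rw [← hf]
  exact core ((F.dat E₀ hE l φ cl cφ).osc_pos μ (dat_e F E₀ hE l φ cl cφ)) hn
    (fd μ (F.dat E₀ hE l φ cl cφ)) ((F.dat E₀ hE l φ cl cφ).osc_inv μ)
    ((F.dat E₀ hE l φ cl cφ).osc_PP μ (dat_e F E₀ hE l φ cl cφ) pφ)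
    ((F.dat E₀ hE l φ cl cφ).osc_PL μ (dat_e F E₀ hE l φ cl cφ) pl)
    ((F.dat E₀ hE l φ cl cφ).osc_hC μ) b f

end

end Vale.Agent.P088.R2.H676.C
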