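import Vale.Agent.P088.R2.H676.C.Inst

/-!
# P088, local step: the core inequality with integrals
-/

set_option linter.unusedSectionVars false

open MeasureTheory Set
open scoped ContDiff

noncomputable section

namespace Vale.Agent.P088.R2.H676.C

open Vale.Agent.P088.HY.H593W
open Vale.Agent.P088.HY.H593W.Osc
open Vale.Agent.P088.R2.H961.S
open Vale.Agent.P088.R2.H961
open Vale.Agent.P088.R2.H961.B (nn Ak Sk)

variable {ι E P : Type} [Fintype ι] [DecidableEq ι] [NormedAddCommGroup E] [NormedSpace ℝ E]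
  [NormedAddCommGroup P] [NormedSpace ℝ P] {π : E →L[ℝ] P}
  [MeasurableSpace E] [BorelSpace E] [FiniteDimensional ℝ E]
  (μ : Measure E) [μ.IsAddHaarMeasure]

/-! ## `nn` -/

theorem nn_add (f g : Mu π) (x : SW π) : nn μ (f + g) x = nn μ f x + nn μ g x := by
  rw [nn, nn, nn, map_add, LinearMap.add_apply, map_add, LinearMap.add_apply]

theorem nn_sub (f g : Mu π) (x : SW π) : nn μ (f - g) x = nn μ f x - nn μ g x := by
  rw [nn, nn, nn, map_sub, LinearMap.sub_apply, map_sub, LinearMap.sub_apply]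

theorem nn_smul (r : ℝ) (f : Mu π) (x : SW π) : nn μ (r • f) x = r * nn μ f x := by
  rw [nn, nn, map_smul, LinearMap.smul_apply, map_smul, LinearMap.smul_apply, smul_eq_mul]

theorem nn_sum {κ : Type*} (s : Finset κ) (f : κ → Mu π) (x : SW π) :
    nn μ (∑ i ∈ s, f i) x = ∑ i ∈ s, nn μ (f i) x := by
  rw [nn, map_sum, LinearMap.sum_apply, map_sum, LinearMap.sum_apply]; rfl

theorem ip_ml2 (f g : Mu π) (x : SW π) : ip μ (ml f x) (ml g x) = nn μ (f * g) x := by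
  rw [nn, mul_comm, map_mul]
  exact (ip_ml μ g (ml f x) x).symm

theorem ip_one (x : SW π) : ip μ x x = nn μ 1 x := by
  rw [nn, map_one]; rfl

theorem nn_ml (f g : Mu π) (x : SW π) : nn μ f (ml g x) = nn μ (f * (g * g)) x := by
  have h1 : ml f (ml g x) = ml (f * g) x := by rw [map_mul]; rfl
  rw [nn, h1, ip_ml2, mul_assoc]

theorem nn_nonneg {f : Mu π} (hf : ∀ z, 0 ≤ (f : E → ℝ) z) (x : SW π) : 0 ≤ nn μ f x :=
  ip_ml_nonneg μ hf x

theorem nn_mono {f g : Mu π} (h : ∀ z, (f : E → ℝ) z ≤ (g : E → ℝ) z) (x : SW π) :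
    nn μ f x ≤ nn μ g x := by
  have h1 := nn_nonneg μ (f := g - f) (fun z => sub_nonneg.2 (h z)) x
  rw [nn_sub] at h1
  linarith

theorem nn_add_le {f : Mu π} (hf : ∀ z, 0 ≤ (f : E → ℝ) z) (x y : SW π) :
    nn μ f (x + y) ≤ 2 * nn μ f x + 2 * nn μ f y := by
  have h1 := nn_nonneg μ hf (x - y)
  rw [nn] at h1 ⊢
  rw [nn, nn]
  simp only [map_add, map_sub, LinearMap.add_apply, LinearMap.sub_apply] at h1 ⊢
  linarith

section
variable (S : Dat ι π)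

/-- `|l|²`. -/
def lam2 : Mu π := ∑ j, S.l1 j * S.l1 j

/-- `φ.l`. -/
def kap : Mu π := ∑ j, S.φ1 j * S.l1 j

/-- `|φ + 2 l|²`. -/
def G2 : Mu π := ∑ j, (S.φ1 j + (2 : ℝ) • S.l1 j) * (S.φ1 j + (2 : ℝ) • S.l1 j)

theorem Gj_eq (j : ι) (x : SW π) : Gj (S.osc μ) (fun i => ml (S.φ1 i)) j x =
    ml (S.φ1 j + (2 : ℝ) • S.l1 j) x := by
  rw [map_add, map_smul]; rfl

theorem B2_nn (x : SW π) : ip μ ((S.osc μ).B2 x) x = ∑ k, nn μ 1 (S.D k x) +
    ((Fintype.card ι : ℝ) - 2) * nn μ S.e x := by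
  have := B2_sq (A := S.osc μ) x
  refine this.trans ?_
  congr 1
  exact Finset.sum_congr rfl fun k _ => ip_one μ _

theorem Cm_eq (c : SW π) : Cm (S.osc μ) (fun i => ml (S.φ1 i)) c =
    nn μ (S.e * kap S) c + 2 * nn μ (S.e * lam2 S) c +
      (1 / 4) * (∑ k, nn μ (lam2 S) (S.D k c) +
        ((Fintype.card ι : ℝ) - 2) * nn μ (S.e * lam2 S) c) := by
  have h1 : ∀ j, ip μ (S.EE (Gj (S.osc μ) (fun i => ml (S.φ1 i)) j c)) (S.L j c) =
      nn μ (S.e * (S.φ1 j * S.l1 j)) c + 2 * nn μ (S.e * (S.l1 j * S.l1 j)) c := by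
    intro j
    have e1 : S.EE (ml (S.φ1 j + (2 : ℝ) • S.l1 j) c) =
        ml (S.e * (S.φ1 j + (2 : ℝ) • S.l1 j)) c := by rw [map_mul]; rfl
    rw [Gj_eq, e1]
    change ip μ _ (ml (S.l1 j) c) = _
    rw [ip_ml2, ← nn_smul, ← nn_add]
    congr 1
    rw [mul_add, add_mul, mul_smul_comm, smul_mul_assoc, mul_assoc, mul_assoc]
  have h2 : ∀ j, ip μ ((S.osc μ).B2 (S.L j c)) (S.L j c) = ∑ k, nn μ (S.l1 j * S.l1 j) (S.D k c) +
      ((Fintype.card ι : ℝ) - 2) * nn μ (S.e * (S.l1 j * S.l1 j)) c := by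
    intro j
    rw [B2_nn]
    congr 1
    · refine Finset.sum_congr rfl fun k _ => ?_
      have : S.D k (S.L j c) = ml (S.l1 j) (S.D k c) := LinearMap.congr_fun (S.D_L k j) c
      rw [this, nn_ml, one_mul]
    · congr 1
      exact nn_ml μ S.e (S.l1 j) c
  have h3 : Cm (S.osc μ) (fun i => ml (S.φ1 i)) c = ∑ j,
      (ip μ (S.EE (Gj (S.osc μ) (fun i => ml (S.φ1 i)) j c)) (S.L j c) +
        (1 / 4) * ip μ ((S.osc μ).B2 (S.L j c)) (S.L j c)) := rfl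
  rw [h3]
  simp only [h1, h2, kap, lam2, Finset.mul_sum, nn_sum, Finset.sum_add_distrib, mul_add]
  rw [Finset.sum_comm (s := Finset.univ) (t := Finset.univ)
    (f := fun j k => 1 / 4 * nn μ (S.l1 j * S.l1 j) (S.D k c))]

/-- `∫ θ E² |q|² c² ≤ ∑ ∫ θ (D_k c)² + n ∫ θ E c²` for functions `θ ≥ 0` of `p`. -/
theorem q_le {θ : Mu π} (hθ : ∀ z, 0 ≤ (θ : E → ℝ) z) (ha : ∀ k, ds (S.a k) θ = 0) (c : SW π) :
    nn μ (θ * (S.e * S.e * S.qq)) c ≤ ∑ k, nn μ θ (S.D k c) +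
      (Fintype.card ι : ℝ) * nn μ (θ * S.e) c := by
  have h1 : ∀ k, nn μ (θ * (S.e * S.e * (S.q k * S.q k))) c ≤ nn μ θ (S.D k c) +
      nn μ (θ * S.e) c := by
    intro k
    have e1 : S.D k c + S.Ds k c = ml ((2 : ℝ) • (S.e * S.q k)) c := by
      rw [Dat.D, Dat.Ds, LinearMap.add_apply, LinearMap.sub_apply, map_smul,
        LinearMap.smul_apply, two_smul]
      abel
    have e2 : nn μ θ (S.Ds k c) = nn μ θ (S.D k c) + 2 * nn μ (θ * S.e) c := by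
      have a1 : nn μ θ (S.Ds k c) = ip μ (ml θ (S.D k (S.Ds k c))) c := by
        rw [nn, ← S.adj_D μ k]
        congr 1
        exact congrArg (ip μ) (LinearMap.congr_fun (S.D_ml ha k) (S.Ds k c))
      have a2 : S.D k (S.Ds k c) = S.Ds k (S.D k c) + (2 : ℝ) • S.EE c := by
        have := LinearMap.congr_fun (S.D_Ds k k) c
        rw [if_pos rfl] at this
        exact this
      have a3 : ip μ (ml θ (S.Ds k (S.D k c))) c = nn μ θ (S.D k c) := by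
        have : ml θ (S.Ds k (S.D k c)) = S.Ds k (ml θ (S.D k c)) :=
          (LinearMap.congr_fun (S.Ds_ml ha k) (S.D k c)).symm
        rw [this, (S.adj_D μ k).symm]
        rfl
      have a4 : ml θ (S.EE c) = ml (θ * S.e) c := by rw [map_mul]; rfl
      rw [a1, a2, map_add, map_smul, a4, map_add, map_smul, LinearMap.add_apply,
        LinearMap.smul_apply, smul_eq_mul, a3]
      rfl
    have e3 := nn_add_le μ hθ (S.D k c) (S.Ds k c)
    rw [e1, nn_ml, e2] at e3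
    have e4 : θ * ((2 : ℝ) • (S.e * S.q k) * (2 : ℝ) • (S.e * S.q k)) =
        (4 : ℝ) • (θ * (S.e * S.e * (S.q k * S.q k))) := by
      have e5 : S.e * S.q k * (S.e * S.q k) = S.e * S.e * (S.q k * S.q k) := by ring
      rw [smul_mul_smul_comm, mul_smul_comm, e5]
      norm_num
    rw [e4, nn_smul] at e3
    linarith
  calc nn μ (θ * (S.e * S.e * S.qq)) c = ∑ k, nn μ (θ * (S.e * S.e * (S.q k * S.q k))) c := by
        rw [Dat.qq, Finset.mul_sum, Finset.mul_sum, nn_sum]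
    _ ≤ ∑ k, (nn μ θ (S.D k c) + nn μ (θ * S.e) c) := Finset.sum_le_sum fun k _ => h1 k
    _ = _ := by rw [Finset.sum_add_distrib, Finset.sum_const, Finset.card_univ, nsmul_eq_mul]

/-- The margin of the core. -/
def Mg0 (b c : SW π) : ℝ :=
  ∑ j, nn μ S.e (ee (S.osc μ) j b c) + nn μ (S.e * S.e) b + ∑ k, nn μ (lam2 S) (S.D k c) +
    nn μ (lam2 S * (S.e * S.e * S.qq)) c + nn μ (S.e * lam2 S) c

theorem lam2_nonneg (z : E) : 0 ≤ (lam2 S : E → ℝ) z := by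
  have : (lam2 S : E → ℝ) z = ∑ j, (S.l1 j : E → ℝ) z * (S.l1 j : E → ℝ) z := by
    rw [lam2]
    simp [Finset.sum_apply]
  rw [this]
  exact Finset.sum_nonneg fun j _ => mul_self_nonneg _

theorem a_lam2 (k : ι) : ds (S.a k) (lam2 S) = 0 := by
  rw [lam2, map_sum]
  exact Finset.sum_eq_zero fun j _ => by rw [ds_mul, S.al1]; simp

/-- **The core inequality.** -/
theorem core_int (hn : 3 ≤ Fintype.card ι) (he : ∀ z, 0 ≤ (S.e : E → ℝ) z)
    (pl : ∀ z (x : ι → ℝ), 0 ≤ ∑ i, ∑ j, (S.l2 i j : E → ℝ) z * x i * x j)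
    (pφ : ∀ z (x : ι → ℝ), 0 ≤ ∑ i, ∑ j, (S.φ2 i j : E → ℝ) z * x i * x j) (b f : SW π) :
    (1 / 12) * Mg0 μ S b ((S.osc μ).B2 f) +
      2 / 3 * ((Fintype.card ι : ℝ) - 2) * (nn μ (S.e * kap S) ((S.osc μ).B2 f) +
        Nm (S.osc μ) (fun i => ml (S.φ1 i)) f) ≤ (S.osc μ).Q b ((S.osc μ).B2 f) := by
  have P := S.osc_pos μ he
  have hPP := S.osc_PP μ he pφ
  have hPL := S.osc_PL μ he pl
  have h1 := core P hn (fd μ S) (S.osc_inv μ) hPP hPL (S.osc_hC μ) b f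
  have h3 : (3 : ℝ) ≤ Fintype.card ι := by exact_mod_cast hn
  have hg : 0 ≤ (S.osc μ).gP S.PP f :=
    Finset.sum_nonneg fun k _ => hPP.EEB2_nonneg (by omega) k f
  have hgL : 0 ≤ (S.osc μ).gL f :=
    Finset.sum_nonneg fun k _ => hPL.EB24_nonneg (by omega) k f
  set c := (S.osc μ).B2 f with hc
  have e1 : ∀ j, ip μ (S.EE (ee (S.osc μ) j b c)) (ee (S.osc μ) j b c) =
      nn μ S.e (ee (S.osc μ) j b c) := fun j => rfl
  have e2 : ip μ (S.EE b) (S.EE b) = nn μ (S.e * S.e) b := ip_ml2 μ S.e S.e b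
  have h4 : ((Fintype.card ι : ℝ) - 2) * (8 / (3 * (Fintype.card ι : ℝ) - 2) *
      ∑ j, nn μ S.e (ee (S.osc μ) j b c) + 4 * nn μ (S.e * S.e) b +
      2 * Cm (S.osc μ) (fun i => ml (S.φ1 i)) c + 2 * Nm (S.osc μ) (fun i => ml (S.φ1 i)) f) ≤
      3 * (S.osc μ).Q b c := by
    have h5 : ((Fintype.card ι : ℝ) - 2) * (8 / (3 * (Fintype.card ι : ℝ) - 2) *
      ∑ j, nn μ S.e (ee (S.osc μ) j b c) + 4 * nn μ (S.e * S.e) b +
      2 * Cm (S.osc μ) (fun i => ml (S.φ1 i)) c + 2 * Nm (S.osc μ) (fun i => ml (S.φ1 i)) f +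
      2 * (S.osc μ).gP S.PP f + (S.osc μ).gL f) ≤ 3 * (S.osc μ).Q b c := by
      rw [← e2]
      exact h1
    have h6 : 0 ≤ ((Fintype.card ι : ℝ) - 2) * (2 * (S.osc μ).gP S.PP f + (S.osc μ).gL f) :=
      mul_nonneg (by linarith) (by linarith)
    linarith
  have h7 := q_le μ S (lam2_nonneg S) (a_lam2 S) c
  rw [Cm_eq] at h4
  have h8 : 0 ≤ nn μ (S.e * lam2 S) c := nn_nonneg μ (fun z => mul_nonneg (he z) (lam2_nonneg S z)) c
  have h9 : 0 ≤ ∑ k, nn μ (lam2 S) (S.D k c) :=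
    Finset.sum_nonneg fun k _ => nn_nonneg μ (lam2_nonneg S) _
  have h10 : 0 ≤ nn μ (S.e * S.e) b := nn_nonneg μ (fun z => mul_self_nonneg _) b
  have h11 : 0 ≤ ∑ j, nn μ S.e (ee (S.osc μ) j b c) :=
    Finset.sum_nonneg fun k _ => nn_nonneg μ he _
  have h12 : (1 / 4 : ℝ) ≤ ((Fintype.card ι : ℝ) - 2) * (8 / (3 * (Fintype.card ι : ℝ) - 2)) := by
    rw [mul_div_assoc', le_div_iff₀ (by linarith)]
    linarith
  have h13 := mul_le_mul_of_nonneg_right h12 h11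
  have h14 : (0 : ℝ) ≤ (Fintype.card ι : ℝ) - 3 := by linarith
  rw [mul_comm (lam2 S) S.e] at h7
  rw [Mg0]
  nlinarith [mul_nonneg h14 h8, mul_nonneg h14 h9, mul_nonneg h14 h10,
    mul_nonneg h14 (mul_nonneg h14 h8)]

/-! ## Convexity terms -/

theorem psd_ip {t : ι → ι → Mu π} (hp : ∀ z (x : ι → ℝ), 0 ≤ ∑ i, ∑ j,
    (t i j : E → ℝ) z * x i * x j) (x : ι → SW π) :
    0 ≤ ∑ i, ∑ j, ip μ (ml (t i j) (x i)) (x j) := by
  have h1 : ∑ i, ∑ j, ip μ (ml (t i j) (x i)) (x j) =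
      B.In μ (∑ i, ∑ j, B.mS (ml (t i j) (x i)) (x j)) := by
    rw [map_sum]
    refine Finset.sum_congr rfl fun i _ => ?_
    rw [map_sum]
    exact Finset.sum_congr rfl fun j _ => rfl
  have h2 : B.In μ (0 : SW π) ≤ B.In μ (∑ i, ∑ j, B.mS (ml (t i j) (x i)) (x j)) := by
    refine B.In_mono μ fun z => ?_
    simp only [B.sum_fn, B.mS_fn, ml_apply, SW.zero_fn]
    exact hp z fun i => (x i).fn z
  rw [h1]
  rwa [map_zero] at h2

theorem ml_BB (i j : ι) (x : SW π) : ml (S.l2 i j * S.e') (S.BB x) =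
    ∑ k, S.Ds k (ml (S.l2 i j * S.e') (S.D k x)) + (Fintype.card ι : ℝ) • ml (S.l2 i j) x := by
  have hp : ∀ k, ds (S.a k) (S.l2 i j * S.e') = 0 := fun k => by
    rw [ds_mul, S.al2, S.ae']; simp
  have e2 : S.BB x = ∑ k, S.Ds k (S.D k x) + (Fintype.card ι : ℝ) • S.EE x := by
    rw [Dat.BB, LinearMap.add_apply, LinearMap.sum_apply]; rfl
  have e3 : ∀ k, ml (S.l2 i j * S.e') (S.Ds k (S.D k x)) =
      S.Ds k (ml (S.l2 i j * S.e') (S.D k x)) := fun k =>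
    (LinearMap.congr_fun (S.Ds_ml hp k) _).symm
  have e4 : ml (S.l2 i j * S.e') (S.EE x) = ml (S.l2 i j) x := by
    have : ml (S.l2 i j * S.e') (S.EE x) = ml (S.l2 i j * S.e' * S.e) x := by
      rw [map_mul (ml : Mu π →ₐ[ℝ] Op π) (S.l2 i j * S.e')]; rfl
    rw [this, mul_assoc, mul_comm S.e', S.inv, mul_one]
  rw [e2, map_add, map_smul, map_sum, e4]
  simp only [e3]

theorem cv_term (i j : ι) (x y : SW π) :
    ip μ ((S.osc μ).C i j x + (4 : ℝ) • (S.osc μ).LL i j x) y = 2 * ip μ (ml (S.φ2 i j) x) y +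
      (4 + (Fintype.card ι : ℝ)) * ip μ (ml (S.l2 i j) x) y +
      ∑ k, ip μ (ml (S.l2 i j * S.e') (S.D k x)) (S.D k y) := by
  have e1 : (S.osc μ).C i j x + (4 : ℝ) • (S.osc μ).LL i j x = (2 : ℝ) • ml (S.φ2 i j) x +
      ml (S.l2 i j * S.e') (S.BB x) + (4 : ℝ) • ml (S.l2 i j) x := rfl
  have e5 : ∀ k, ip μ (S.Ds k (ml (S.l2 i j * S.e') (S.D k x))) y =
      ip μ (ml (S.l2 i j * S.e') (S.D k x)) (S.D k y) := fun k =>
    (S.adj_D μ k).symm _ _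
  rw [e1, ml_BB]
  simp only [map_add (ip μ), map_smul (ip μ), map_sum (ip μ), LinearMap.add_apply,
    LinearMap.smul_apply, LinearMap.sum_apply, smul_eq_mul, e5]
  ring

theorem cv_eq (c : SW π) :
    (S.osc μ).cv c = 2 * (∑ i, ∑ j, ip μ (ml (S.φ2 i j) (S.D i c)) (S.D j c)) +
      (4 + (Fintype.card ι : ℝ)) * (∑ i, ∑ j, ip μ (ml (S.l2 i j) (S.D i c)) (S.D j c)) +
      ∑ k, ∑ i, ∑ j, ip μ (ml (S.l2 i j * S.e') (S.D k (S.D i c))) (S.D k (S.D j c)) := by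
  have h0 : (S.osc μ).cv c = ∑ i, ∑ j, ip μ ((S.osc μ).C i j (S.D i c) +
      (4 : ℝ) • (S.osc μ).LL i j (S.D i c)) (S.D j c) := rfl
  have h1 : ∀ i j, ip μ ((S.osc μ).C i j (S.D i c) +
      (4 : ℝ) • (S.osc μ).LL i j (S.D i c)) (S.D j c) =
      2 * ip μ (ml (S.φ2 i j) (S.D i c)) (S.D j c) +
      (4 + (Fintype.card ι : ℝ)) * ip μ (ml (S.l2 i j) (S.D i c)) (S.D j c) +
      ∑ k, ip μ (ml (S.l2 i j * S.e') (S.D k (S.D i c))) (S.D k (S.D j c)) := fun i j =>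
    cv_term μ S i j _ _
  rw [h0]
  simp only [h1, Finset.sum_add_distrib, ← Finset.mul_sum]
  congr 1
  exact Osc.sum3 _

theorem e'_nonneg (he : ∀ z, 0 ≤ (S.e : E → ℝ) z) (z : E) : 0 ≤ (S.e' : E → ℝ) z := by
  have h1 : (S.e : E → ℝ) z * (S.e' : E → ℝ) z = 1 :=
    congrArg (fun g : Mu π => (g : E → ℝ) z) S.inv
  by_contra hne
  have h2 := mul_nonneg (he z) (neg_nonneg.2 (not_le.1 hne).le)
  linarith

theorem cv_nonneg (he : ∀ z, 0 ≤ (S.e : E → ℝ) z)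
    (pl : ∀ z (x : ι → ℝ), 0 ≤ ∑ i, ∑ j, (S.l2 i j : E → ℝ) z * x i * x j)
    (pφ : ∀ z (x : ι → ℝ), 0 ≤ ∑ i, ∑ j, (S.φ2 i j : E → ℝ) z * x i * x j) (c : SW π) :
    0 ≤ (S.osc μ).cv c := by
  have a1 := psd_ip μ pφ fun i => S.D i c
  have a2 := psd_ip μ pl fun i => S.D i c
  have pl' : ∀ z (x : ι → ℝ), 0 ≤ ∑ i, ∑ j, ((S.l2 i j * S.e' : Mu π) : E → ℝ) z * x i * x j := by
    intro z x
    have h3 := mul_nonneg (e'_nonneg S he z) (pl z x)
    rw [Finset.mul_sum] at h3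
    simp only [Finset.mul_sum] at h3
    refine h3.trans (le_of_eq ?_)
    refine Finset.sum_congr rfl fun i _ => Finset.sum_congr rfl fun j _ => ?_
    change _ = ((S.l2 i j : E → ℝ) z * (S.e' : E → ℝ) z) * x i * x j
    ring
  have a3 : 0 ≤ ∑ k, ∑ i, ∑ j, ip μ (ml (S.l2 i j * S.e') (S.D k (S.D i c)))
      (S.D k (S.D j c)) :=
    Finset.sum_nonneg fun k _ => psd_ip μ pl' fun i => S.D k (S.D i c)
  have a4 : (0 : ℝ) ≤ 4 + (Fintype.card ι : ℝ) := by positivity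
  rw [cv_eq]
  have := mul_nonneg a4 a2
  linarith

end

end Vale.Agent.P088.R2.H676.C
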