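import Vale.Agent.P088.R2.H593.W.Core3

/-!
# P088, local step: the `c`-margin of the core
-/

set_option linter.unusedSectionVars false

noncomputable section

namespace Vale.Agent.P088.R2.H676.C

open Finset
open Vale.Agent.P088.HY.H593W
open Vale.Agent.P088.HY.H593W.Osc

variable {ι F : Type*} [Fintype ι] [DecidableEq ι] [AddCommGroup F] [Module ℝ F]
variable {A : Osc ι F}

/-- `φ'` as multiplications: `v_j + v_j^* = 2 φ_j + (l_j / E) BB`. -/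
structure Fd (A : Osc ι F) (f1 : ι → F →ₗ[ℝ] F) (Ph : ι → ι → F →ₗ[ℝ] F) : Prop where
  ad : ∀ i x y, A.ip (f1 i x) y = A.ip x (f1 i y)
  fD : ∀ i j x, f1 i (A.D j x) = A.D j (f1 i x)
  fDs : ∀ i j x, f1 i (A.Ds j x) = A.Ds j (f1 i x)
  fE : ∀ i x, A.E (f1 i x) = f1 i (A.E x)
  fL : ∀ i j x, f1 i (A.L j x) = A.L j (f1 i x)
  v : ∀ i j x, A.v j (f1 i x) = f1 i (A.v j x) + Ph j i x
  vs : ∀ j x, A.E (A.v j x + A.vs j x) = (2 : ℝ) • A.E (f1 j x) + A.L j (A.BB x)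

variable {f1 : ι → F →ₗ[ℝ] F} {Ph : ι → ι → F →ₗ[ℝ] F} {Ei : F →ₗ[ℝ] F}

/-- `B2 + 4 E`. -/
def Y (A : Osc ι F) (x : F) : F := A.B2 x + (4 : ℝ) • A.E x

/-- `Σ_j = φ_j + (l_j / 2E) (B2 + 4 E)`. -/
def Sg (A : Osc ι F) (f1 : ι → F →ₗ[ℝ] F) (Ei : F →ₗ[ℝ] F) (j : ι) (x : F) : F :=
  f1 j x + (1 / 2 : ℝ) • Ei (A.L j (Y A x))

/-- `φ_j + 2 l_j`. -/
def Gj (A : Osc ι F) (f1 : ι → F →ₗ[ℝ] F) (j : ι) (x : F) : F := f1 j x + (2 : ℝ) • A.L j x

section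
variable (hF : Fd A f1 Ph) (h : A.Inv Ei)
include hF h

theorem fN (i : ι) (x : F) : f1 i (A.N x) = A.N (f1 i x) := by
  simp only [N_apply, map_sum, hF.fDs, hF.fD]

theorem fB2 (i : ι) (x : F) : f1 i (A.B2 x) = A.B2 (f1 i x) := by
  simp only [B2_apply, map_add, map_smul, fN hF h, hF.fE]

theorem fY (i : ι) (x : F) : f1 i (Y A x) = Y A (f1 i x) := by
  rw [Y, Y, map_add, map_smul, fB2 hF h, hF.fE]

theorem fEi (i : ι) (x : F) : f1 i (Ei x) = Ei (f1 i x) := (h.comm (hF.fE i) x).symm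

/-- `w + w^† = 2 Σ`. -/
theorem w_add (j : ι) (x : F) : A.w j x + (A.vs j x - (2 : ℝ) • A.L j x) =
    (2 : ℝ) • Sg A f1 Ei j x := by
  have h1 := congrArg Ei (hF.vs j x)
  rw [h.r, map_add, map_smul, h.r] at h1
  have h2 : A.BB x = A.B2 x + (2 : ℝ) • A.E x := by
    rw [BB_apply, B2_apply]; module
  have h3 : Ei (A.L j (Y A x)) = Ei (A.L j (A.BB x)) + (2 : ℝ) • A.L j x := by
    rw [Y, h2]
    simp only [map_add, map_smul, ← A.EL, h.r]
    module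
  rw [w_apply, Sg, h3]
  have h4 : A.vs j x = (2 : ℝ) • f1 j x + Ei (A.L j (A.BB x)) - A.v j x := by
    rw [← h1]; abel
  rw [h4]
  module

omit hF h in
/-- The adjoint of `w` for `⟨E² B2 ., .⟩`. -/
theorem adw (j : ι) (x y : F) : A.ip (A.E (A.E (A.B2 (A.w j x)))) y =
    A.ip (A.E (A.E (A.B2 x))) (A.vs j y - (2 : ℝ) • A.L j y) := by
  have h1 : A.E (A.E (A.B2 (A.w j x))) = A.v j (A.E (A.E (A.B2 x))) -
      (2 : ℝ) • A.L j (A.E (A.E (A.B2 x))) := by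
    have e1 : A.E (A.E (A.B2 (A.w j x))) = A.B2 (A.v j (A.E (A.E x))) := by
      rw [A.EB2, A.EB2, A.vEE]
    have e2 : A.B2 (A.v j (A.E (A.E x))) = A.v j (A.B2 (A.E (A.E x))) -
        (2 : ℝ) • A.B2 (A.L j (A.E (A.E x))) := by
      rw [A.vB2]; abel
    rw [e1, e2, ← A.LB2, A.EB2, A.EB2]
  rw [h1]
  simp only [map_sub, map_smul, LinearMap.sub_apply, LinearMap.smul_apply, smul_eq_mul, A.adv,
    A.adL]

theorem vEi (j : ι) (x : F) : A.v j (Ei x) = Ei (A.v j x) - (2 : ℝ) • Ei (A.L j x) := by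
  have h1 := A.vE j (Ei x)
  rw [h.l] at h1
  have h2 : A.L j (Ei x) = Ei (A.L j x) := (h.L j x).symm
  rw [h1]
  simp only [map_add, map_smul, h.r, h2]
  abel

theorem w_Sg (j : ι) (x : F) : A.w j (Sg A f1 Ei j x) = Sg A f1 Ei j (A.w j x) + Ph j j x +
    (1 / 2 : ℝ) • Ei (A.LL j j (Y A x)) := by
  have h1 : A.v j (Y A x) = Y A (A.v j x) + (2 : ℝ) • Y A (A.L j x) := by
    rw [Y, Y, Y, map_add, map_smul, A.vB2, A.vE]; module
  have hL : A.L j (Y A x) = Y A (A.L j x) := by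
    rw [Y, Y, map_add, map_smul, A.LB2, A.EL]
  have hYL : ∀ y, Y A (A.L j y) = A.L j (Y A y) := fun y => by
    rw [Y, Y, map_add, map_smul, A.LB2, A.EL]
  have hYw : Y A (A.w j x) = Y A (A.v j x) + (4 : ℝ) • Y A (A.L j x) := by
    rw [w_apply, Y, Y, Y]
    simp only [map_add, map_smul]
    module
  have h3 : A.v j (Ei (A.L j (Y A x))) = Ei (A.L j (Y A (A.v j x))) + Ei (A.LL j j (Y A x)) := by
    rw [vEi hF h, A.vL, h1]
    simp only [map_add, map_smul, hYL]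
    abel
  rw [Sg, Sg, hYw, w_apply, w_apply]
  simp only [map_add, map_smul, hF.v, h3, hF.fL, hYL]
  have h4 : A.L j (Ei (A.L j (Y A x))) = Ei (A.L j (A.L j (Y A x))) := (h.L j _).symm
  rw [h4]
  module

end

section
variable (P : A.Pos) (hn : 2 ≤ Fintype.card ι) (hF : Fd A f1 Ph) (h : A.Inv Ei)
include P hn

theorem M_nonneg (x : F) : 0 ≤ A.ip (A.E (A.E (A.B2 x))) x := by
  have h1 := P.EEN x
  have h2 := P.EEB2 hn x
  linarith

omit P hn in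
theorem adM (x y : F) : A.ip (A.E (A.E (A.B2 x))) y = A.ip x (A.E (A.E (A.B2 y))) := by
  rw [A.adE, A.adE, A.adB2, A.EB2, A.EB2]

omit P hn in
theorem symM (x y : F) : A.ip (A.E (A.E (A.B2 x))) y = A.ip (A.E (A.E (A.B2 y))) x := by
  rw [adM, A.symm]

include hF h

theorem w_lower (j : ι) (f : F) :
    A.ip (A.E (A.E (A.B2 (Sg A f1 Ei j f)))) (Sg A f1 Ei j f) -
      A.ip (A.E (A.E (A.B2 (Ph j j f)))) f -
      (1 / 2) * A.ip (A.E (A.B2 (A.LL j j (Y A f)))) f ≤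
    A.ip (A.E (A.E (A.B2 (A.w j f)))) (A.w j f) := by
  set s := Sg A f1 Ei j f with hs
  set w := A.w j f with hw
  have h0 := M_nonneg P hn (w - s)
  have e0 : A.ip (A.E (A.E (A.B2 (w - s)))) (w - s) = A.ip (A.E (A.E (A.B2 w))) w -
      2 * A.ip (A.E (A.E (A.B2 w))) s + A.ip (A.E (A.E (A.B2 s))) s := by
    simp only [map_sub, LinearMap.sub_apply]
    rw [symM s w]; ring
  have h1 := w_add hF h j f
  have e1 : A.ip (A.E (A.E (A.B2 w))) s = 2 * A.ip (A.E (A.E (A.B2 s))) s -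
      A.ip (A.E (A.E (A.B2 s))) (A.vs j f - (2 : ℝ) • A.L j f) := by
    have : w = (2 : ℝ) • s - (A.vs j f - (2 : ℝ) • A.L j f) := by
      rw [hs, ← h1]; abel
    conv_lhs => rw [this]
    simp only [map_sub, map_smul, LinearMap.sub_apply, LinearMap.smul_apply, smul_eq_mul]
    rw [symM (A.vs j f) s, symM (A.L j f) s]
  have e2 : A.ip (A.E (A.E (A.B2 s))) (A.vs j f - (2 : ℝ) • A.L j f) =
      A.ip (A.E (A.E (A.B2 w))) s + A.ip (A.E (A.E (A.B2 (Ph j j f)))) f +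
        (1 / 2) * A.ip (A.E (A.B2 (A.LL j j (Y A f)))) f := by
    rw [← adw, w_Sg hF h, ← hw]
    have e3 : A.E (A.E (A.B2 (Ei (A.LL j j (Y A f))))) = A.E (A.B2 (A.LL j j (Y A f))) := by
      have hB : ∀ x, A.B2 (Ei x) = Ei (A.B2 x) := fun x => (h.comm A.EB2 x).symm
      rw [hB, h.l]
    have e4 : A.ip (A.E (A.E (A.B2 (Sg A f1 Ei j w)))) f =
        A.ip (A.E (A.E (A.B2 w))) s := by
      have hS : ∀ x y, A.ip (Sg A f1 Ei j x) y = A.ip x (Sg A f1 Ei j y) := by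
        intro x y
        have hYad : ∀ x y, A.ip (Y A x) y = A.ip x (Y A y) := fun x y => by
          rw [Y, Y, map_add, map_smul, map_add, map_smul, LinearMap.add_apply,
            LinearMap.smul_apply, A.adB2, A.adE]
        have hYL : ∀ y, Y A (A.L j y) = A.L j (Y A y) := fun y => by
          rw [Y, Y, map_add, map_smul, A.LB2, A.EL]
        have hYE : ∀ y, A.E (Y A y) = Y A (A.E y) := fun y => by
          rw [Y, Y, map_add, map_smul, A.EB2]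
        have hYEi : ∀ y, Y A (Ei y) = Ei (Y A y) := fun y => by
          have := hYE (Ei y)
          rw [h.l] at this
          rw [← this, h.r]
        rw [Sg, Sg, map_add, map_smul, map_add, map_smul, LinearMap.add_apply,
          LinearMap.smul_apply, hF.ad, h.ad, A.adL, hYad, hYL, hYEi, ← h.L]
      have hM : A.E (A.E (A.B2 (Sg A f1 Ei j w))) = Sg A f1 Ei j (A.E (A.E (A.B2 w))) := by
        have c1 : ∀ x, A.E (Sg A f1 Ei j x) = Sg A f1 Ei j (A.E x) := fun x => by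
          have hYE : A.E (Y A x) = Y A (A.E x) := by
            rw [Y, Y, map_add, map_smul, A.EB2]
          rw [Sg, Sg, map_add, map_smul, hF.fE, h.l, ← hYE, ← A.EL, h.r]
        have c2 : ∀ x, A.B2 (Sg A f1 Ei j x) = Sg A f1 Ei j (A.B2 x) := fun x => by
          have hYB : A.B2 (Y A x) = Y A (A.B2 x) := by
            rw [Y, Y, map_add, map_smul, A.EB2]
          have hB : ∀ x, A.B2 (Ei x) = Ei (A.B2 x) := fun x => (h.comm A.EB2 x).symm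
          rw [Sg, Sg, map_add, map_smul, fB2 hF h, hB, ← A.LB2, hYB]
        rw [c2, c1, c1]
      rw [hM, hS]
    simp only [map_add, map_smul, LinearMap.add_apply, LinearMap.smul_apply, smul_eq_mul, e3, e4]
  linarith

end

section
variable (P : A.Pos) (hn : 2 ≤ Fintype.card ι) (hF : Fd A f1 Ph) (h : A.Inv Ei)
variable (hPh : A.PM Ph) (hLL : A.PM A.LL)
  (hC : ∀ i j x, A.E (A.C i j x) = (2 : ℝ) • A.E (Ph i j x) + A.LL i j (A.BB x))
include P hn hF h hPh hLL hC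

/-- Lower bound of `Q` with the squares of `Σ_j f`. -/
theorem Q_lower2 (b f : F) :
    8 * A.ip (A.E (A.BB (b + (1 / 2 : ℝ) • A.vsD f))) (b + (1 / 2 : ℝ) • A.vsD f) +
    2 * ((Fintype.card ι : ℝ) - 2) * ∑ j, A.ip (A.E (A.E (A.B2 (Sg A f1 Ei j f)))) (Sg A f1 Ei j f) +
    ∑ i, ∑ j, A.ip (A.E (A.BB (A.D i (A.w j f) - A.D j (A.w i f))))
        (A.D i (A.w j f) - A.D j (A.w i f)) +
    2 * ((Fintype.card ι : ℝ) - 2) * A.gP Ph f + ((Fintype.card ι : ℝ) - 2) * A.gL f ≤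
    A.Q b (A.B2 f) := by
  have h1 := Q_lower hPh hLL hC b f
  have h2 : ∑ j, (A.ip (A.E (A.E (A.B2 (Sg A f1 Ei j f)))) (Sg A f1 Ei j f) -
      A.ip (A.E (A.E (A.B2 (Ph j j f)))) f -
      (1 / 2) * A.ip (A.E (A.B2 (A.LL j j (Y A f)))) f) ≤
      ∑ j, A.ip (A.E (A.E (A.B2 (A.w j f)))) (A.w j f) :=
    sum_le_sum fun j _ => w_lower P hn hF h j f
  rw [sum_sub_distrib, sum_sub_distrib, ← mul_sum] at h2
  have h3 : ∑ j, A.ip (A.E (A.B2 (A.LL j j (Y A f)))) f = A.gL f := by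
    refine sum_congr rfl fun j _ => ?_
    rw [Y, map_add, map_smul, hLL.TB2, ← hLL.TE]
  have h4 : ∑ j, A.ip (A.E (A.E (A.B2 (Ph j j f)))) f = A.gP Ph f := rfl
  rw [h3, h4] at h2
  have h5 : (0 : ℝ) ≤ (Fintype.card ι : ℝ) - 2 := by
    have : (2 : ℝ) ≤ Fintype.card ι := by exact_mod_cast hn
    linarith
  nlinarith [mul_le_mul_of_nonneg_left h2 h5]

omit P hn hPh hLL hC in
/-- Expansion of `|Σ_j f|²`. -/
theorem Sg_sq (j : ι) (f : F) :
    A.ip (A.E (A.E (A.B2 (Sg A f1 Ei j f)))) (Sg A f1 Ei j f) =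
      A.ip (A.E (A.E (A.B2 (Gj A f1 j f)))) (Gj A f1 j f) +
      A.ip (A.E (Gj A f1 j (A.B2 f))) (A.L j (A.B2 f)) +
      (1 / 4) * A.ip (A.B2 (A.L j (A.B2 f))) (A.L j (A.B2 f)) := by
  have hB : ∀ x, A.B2 (Ei x) = Ei (A.B2 x) := fun x => (h.comm A.EB2 x).symm
  have e1 : Sg A f1 Ei j f = Gj A f1 j f + (1 / 2 : ℝ) • Ei (A.L j (A.B2 f)) := by
    rw [Sg, Gj, Y]
    simp only [map_add, map_smul, ← A.EL, h.r]
    module
  have e2 : ∀ x y, A.ip (A.E (A.E x)) (Ei y) = A.ip (A.E x) y := fun x y => by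
    rw [← h.ad, h.r]
  have e3 : A.E (A.E (A.B2 (Ei (A.L j (A.B2 f))))) = A.E (A.B2 (A.L j (A.B2 f))) := by
    rw [hB, h.l]
  have e5 : ∀ y, A.ip (A.E y) (Ei y) = A.ip y y := fun y => by rw [← h.ad, h.r]
  have e6 : A.B2 (Gj A f1 j f) = Gj A f1 j (A.B2 f) := by
    rw [Gj, Gj, map_add, map_smul, fB2 hF h, A.LB2]
  have e7 : A.ip (A.E (A.B2 (A.L j (A.B2 f)))) (Ei (A.L j (A.B2 f))) =
      A.ip (A.B2 (A.L j (A.B2 f))) (A.L j (A.B2 f)) := by
    rw [← h.ad, h.r]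
  have e8 : A.ip (A.E (A.B2 (A.L j (A.B2 f)))) (Gj A f1 j f) =
      A.ip (A.E (Gj A f1 j (A.B2 f))) (A.L j (A.B2 f)) := by
    rw [A.adE, A.adB2, ← A.EB2, e6, A.symm]
  rw [e1]
  simp only [map_add, map_smul, LinearMap.add_apply, LinearMap.smul_apply, smul_eq_mul, e2, e3,
    e7, e8, e6]
  ring

/-- **The `c`-margin.** -/
theorem c_margin (b f : F) :
    2 * ((Fintype.card ι : ℝ) - 2) * ∑ j, (A.ip (A.E (Gj A f1 j (A.B2 f))) (A.L j (A.B2 f)) +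
      (1 / 4) * A.ip (A.B2 (A.L j (A.B2 f))) (A.L j (A.B2 f))) +
    2 * ((Fintype.card ι : ℝ) - 2) * A.gP Ph f + ((Fintype.card ι : ℝ) - 2) * A.gL f ≤
    A.Q b (A.B2 f) := by
  have h1 := Q_lower2 P hn hF h hPh hLL hC b f
  have h2 : 0 ≤ ∑ i, ∑ j, A.ip (A.E (A.BB (A.D i (A.w j f) - A.D j (A.w i f))))
        (A.D i (A.w j f) - A.D j (A.w i f)) :=
    sum_nonneg fun i _ => sum_nonneg fun j _ => P.EBB0 _
  have h3 := P.EBB0 (b + (1 / 2 : ℝ) • A.vsD f)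
  have h5 : (0 : ℝ) ≤ (Fintype.card ι : ℝ) - 2 := by
    have : (2 : ℝ) ≤ Fintype.card ι := by exact_mod_cast hn
    linarith
  have h6 : ∑ j, (A.ip (A.E (Gj A f1 j (A.B2 f))) (A.L j (A.B2 f)) +
      (1 / 4) * A.ip (A.B2 (A.L j (A.B2 f))) (A.L j (A.B2 f))) ≤
      ∑ j, A.ip (A.E (A.E (A.B2 (Sg A f1 Ei j f)))) (Sg A f1 Ei j f) := by
    refine sum_le_sum fun j _ => ?_
    rw [Sg_sq hF h j f]
    have := M_nonneg P hn (Gj A f1 j f)
    linarith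
  nlinarith [mul_le_mul_of_nonneg_left h6 h5]

end

end Vale.Agent.P088.R2.H676.C
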