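import Vale.Agent.P088.R2.H961.S.Sw

/-!
# Inverses of multipliers
-/

set_option linter.unusedSectionVars false

open MeasureTheory Set
open scoped ContDiff

noncomputable section

namespace Vale.Agent.P088.R2.H676.C

open Vale.Agent.P088.R2.H961.S

variable {E P : Type} [NormedAddCommGroup E] [NormedSpace ℝ E] [NormedAddCommGroup P]
  [NormedSpace ℝ P]

/-- Bounds of the derivatives of order at most `m`. -/
def Bm {G : Type} [NormedAddCommGroup G] [NormedSpace ℝ G] (π : E →L[ℝ] P) (m : ℕ) (f : E → G) :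
    Prop :=
  ∀ K : Set P, IsCompact K → ∃ (k : ℕ) (C : ℝ), 0 ≤ C ∧ ∀ i ≤ m, ∀ z, π z ∈ K →
    ‖iteratedFDeriv ℝ i f z‖ ≤ C * (1 + ‖z‖) ^ k

variable {G : Type} [NormedAddCommGroup G] [NormedSpace ℝ G] {π : E →L[ℝ] P}

theorem Bm.smul {m : ℕ} {f : E → ℝ} {g : E → G} (cf : ContDiff ℝ ∞ f) (cg : ContDiff ℝ ∞ g)
    (hf : Bm π m f) (hg : Bm π m g) : Bm π m fun z => f z • g z := by
  intro K hK
  obtain ⟨k, C, hC0, hC⟩ := hf K hK
  obtain ⟨l, D, hD0, hD⟩ := hg K hK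
  have hle : ∀ i ≤ m, (∑ a ∈ Finset.range (i + 1), ((i.choose a : ℕ) : ℝ) * C * D) ≤
      ∑ b ∈ Finset.range (m + 1), ∑ a ∈ Finset.range (b + 1), ((b.choose a : ℕ) : ℝ) * C * D :=
    fun i hi => Finset.single_le_sum
      (f := fun b => ∑ a ∈ Finset.range (b + 1), ((b.choose a : ℕ) : ℝ) * C * D)
      (fun b _ => Finset.sum_nonneg fun a _ => by positivity) (Finset.mem_range.2 (by omega))
  refine ⟨k + l, ∑ b ∈ Finset.range (m + 1), ∑ a ∈ Finset.range (b + 1),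
    ((b.choose a : ℕ) : ℝ) * C * D, Finset.sum_nonneg fun b _ =>
      Finset.sum_nonneg fun a _ => by positivity, fun i hi z hz => ?_⟩
  refine (norm_iteratedFDeriv_smul_le cf cg z (n := i) (by exact_mod_cast le_top)).trans ?_
  calc ∑ a ∈ Finset.range (i + 1), ((i.choose a : ℕ) : ℝ) * ‖iteratedFDeriv ℝ a f z‖ *
        ‖iteratedFDeriv ℝ (i - a) g z‖ ≤
      ∑ a ∈ Finset.range (i + 1), ((i.choose a : ℕ) : ℝ) * (C * (1 + ‖z‖) ^ k) *
        (D * (1 + ‖z‖) ^ l) := by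
        refine Finset.sum_le_sum fun a ha => ?_
        have ha' : a ≤ i := by have := Finset.mem_range.1 ha; omega
        gcongr
        · exact hC a (ha'.trans hi) z hz
        · exact hD (i - a) ((Nat.sub_le _ _).trans hi) z hz
    _ = (∑ a ∈ Finset.range (i + 1), ((i.choose a : ℕ) : ℝ) * C * D) * (1 + ‖z‖) ^ (k + l) := by
        rw [Finset.sum_mul]
        exact Finset.sum_congr rfl fun a _ => by rw [pow_add]; ring
    _ ≤ _ := by
        have := hle i hi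
        gcongr

theorem Bm.succ {m : ℕ} {f : E → G} (h0 : Bm π 0 f) (h1 : Bm π m (fderiv ℝ f)) :
    Bm π (m + 1) f := by
  intro K hK
  obtain ⟨k, C, hC0, hC⟩ := h0 K hK
  obtain ⟨l, D, hD0, hD⟩ := h1 K hK
  refine ⟨max k l, C + D, by positivity, fun i hi z hz => ?_⟩
  have hk : (1 + ‖z‖) ^ k ≤ (1 + ‖z‖) ^ max k l := pow_mono (le_max_left _ _) z
  have hl : (1 + ‖z‖) ^ l ≤ (1 + ‖z‖) ^ max k l := pow_mono (le_max_right _ _) z
  have hp : 0 ≤ (1 + ‖z‖) ^ max k l := by positivity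
  rcases Nat.eq_zero_or_pos i with rfl | hi0
  · refine (hC 0 le_rfl z hz).trans ?_
    have := mul_le_mul_of_nonneg_left hk hC0
    nlinarith
  · obtain ⟨j, rfl⟩ : ∃ j, i = j + 1 := ⟨i - 1, by omega⟩
    rw [← norm_iteratedFDeriv_fderiv]
    refine (hD j (by omega) z hz).trans ?_
    have := mul_le_mul_of_nonneg_left hl hD0
    nlinarith

theorem Bm.of_Mg {g : E → ℝ} (h : Mg π g) (m : ℕ) : Bm π m g := by
  intro K hK
  obtain ⟨k, C, hC0, hC⟩ := h.unif hK m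
  exact ⟨k, C, hC0, hC⟩

theorem Bm.fderiv {g : E → ℝ} (h : ∀ m, Bm π m g) (m : ℕ) : Bm π m (_root_.fderiv ℝ g) := by
  intro K hK
  obtain ⟨k, C, hC0, hC⟩ := h (m + 1) K hK
  refine ⟨k, C, hC0, fun i hi z hz => ?_⟩
  rw [norm_iteratedFDeriv_fderiv]
  exact hC (i + 1) (by omega) z hz

/-- The inverse of a multiplier `≥ 1`. -/
theorem exists_inv (g : Mu π) (hg : ∀ z, 1 ≤ (g : E → ℝ) z) : ∃ t : Mu π, t * g = 1 := by
  have g0 : ∀ z, (g : E → ℝ) z ≠ 0 := fun z => (lt_of_lt_of_le one_pos (hg z)).ne'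
  set u : E → ℝ := fun z => ((g : E → ℝ) z)⁻¹ with hu
  have cu : ContDiff ℝ ∞ u := (scd g).inv g0
  have hb0 : Bm π 0 u := by
    intro K _
    refine ⟨0, 1, zero_le_one, fun i hi z _ => ?_⟩
    obtain rfl : i = 0 := by omega
    rw [norm_iteratedFDeriv_zero, pow_zero, mul_one, hu]
    change ‖((g : E → ℝ) z)⁻¹‖ ≤ 1
    rw [norm_inv, Real.norm_eq_abs, abs_of_pos (lt_of_lt_of_le one_pos (hg z))]
    exact inv_le_one_of_one_le₀ (hg z)
  have hd : fderiv ℝ u = fun z => (u z) • ((u z) • (-fderiv ℝ (g : E → ℝ) z)) := by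
    funext z
    have h1 : HasFDerivAt u (-(((g : E → ℝ) z ^ 2)⁻¹) • fderiv ℝ (g : E → ℝ) z) z :=
      (hasDerivAt_inv (g0 z)).comp_hasFDerivAt z (sdf g z).hasFDerivAt
    rw [h1.fderiv, smul_smul, smul_neg, neg_smul, hu]
    congr 2
    field_simp
  have hgm : ∀ m, Bm π m fun z => -fderiv ℝ (g : E → ℝ) z := by
    intro m K hK
    obtain ⟨k, C, hC0, hC⟩ := Bm.fderiv (fun m => Bm.of_Mg g.2.2 m) m K hK
    refine ⟨k, C, hC0, fun i hi z hz => ?_⟩
    have e : iteratedFDeriv ℝ i (fun z => -fderiv ℝ (g : E → ℝ) z) z =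
        -iteratedFDeriv ℝ i (fderiv ℝ (g : E → ℝ)) z := iteratedFDeriv_neg_apply
    rw [e, norm_neg]
    exact hC i hi z hz
  have cd : ContDiff ℝ ∞ fun z => -fderiv ℝ (g : E → ℝ) z :=
    ((scd g).fderiv_right (m := ∞) (by simp)).neg
  have hb : ∀ m, Bm π m u := by
    intro m
    induction m with
    | zero => exact hb0
    | succ m ih =>
      refine Bm.succ hb0 ?_
      rw [hd]
      exact Bm.smul cu (cu.smul cd) ih (Bm.smul cu cd ih (hgm m))
  refine ⟨⟨u, cu, fun K hK m => ?_⟩, ?_⟩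
  · obtain ⟨k, C, -, hC⟩ := hb m K hK
    exact ⟨k, C, fun z hz => hC m le_rfl z hz⟩
  · apply Subtype.ext
    funext z
    change ((g : E → ℝ) z)⁻¹ * (g : E → ℝ) z = 1
    exact inv_mul_cancel₀ (g0 z)

end Vale.Agent.P088.R2.H676.C
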