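import Vale.Agent.P088.R2.H676.C.Int

/-!
# P088, local step: the term `∫ E |φ' + 2 l'|² c² / (1 + E |q|²)` of the core
-/

set_option linter.unusedSectionVars false

open MeasureTheory Set
open scoped ContDiff

noncomputable section

namespace Vale.Agent.P088.R2.H676.C

open Vale.Agent.P088.HY.H593W
open Vale.Agent.P088.HY.H593W.Osc
open Vale.Agent.P088.R2.H961
open Vale.Agent.P088.R2.H961.S
open Vale.Agent.P088.R2.H961.B (nn Ak Sk)

variable {ι E P : Type} [Fintype ι] [DecidableEq ι] [NormedAddCommGroup E] [NormedSpace ℝ E]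
  [NormedAddCommGroup P] [NormedSpace ℝ P] {π : E →L[ℝ] P}
  [MeasurableSpace E] [BorelSpace E] [FiniteDimensional ℝ E]
  (μ : Measure E) [μ.IsAddHaarMeasure]

section
variable (S : Dat ι π) {t : Mu π} (ht : t * (1 + S.e * S.qq) = 1) (he : ∀ z, 0 ≤ (S.e : E → ℝ) z)

theorem qq_fn (z : E) : (S.qq : E → ℝ) z = ∑ k, (S.q k : E → ℝ) z * (S.q k : E → ℝ) z := by
  rw [Dat.qq]
  simp [Finset.sum_apply]

theorem qq_nonneg (z : E) : 0 ≤ (S.qq : E → ℝ) z := by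
  rw [qq_fn]
  exact Finset.sum_nonneg fun k _ => mul_self_nonneg _

include ht

theorem t_fn (z : E) : (t : E → ℝ) z * (1 + (S.e : E → ℝ) z * (S.qq : E → ℝ) z) = 1 :=
  congrArg (fun g : Mu π => (g : E → ℝ) z) ht

theorem a_t (k : ι) : ds (S.a k) t = -((2 : ℝ) • (t * t * (S.e * S.q k))) := by
  have h1 : ds (S.a k) (t * (1 + S.e * S.qq)) = 0 := by rw [ht, ds_one]
  rw [ds_mul, map_add, ds_one, ds_mul, S.ae, S.aqq, zero_mul, zero_add, zero_add] at h1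
  have h2 : t * (ds (S.a k) t * (1 + S.e * S.qq) + t * (S.e * (2 * S.q k))) = 0 := by
    rw [h1, mul_zero]
  have h3 : t * (ds (S.a k) t * (1 + S.e * S.qq) + t * (S.e * (2 * S.q k))) =
      (t * (1 + S.e * S.qq)) * ds (S.a k) t + 2 * (t * t * (S.e * S.q k)) := by ring
  rw [h3, ht, one_mul] at h2
  rw [two_smul]
  rw [eq_neg_of_add_eq_zero_left h2]
  ring

include he

theorem t_pos (z : E) : 0 < (t : E → ℝ) z := by
  have h1 := t_fn S ht z
  have h2 := mul_nonneg (he z) (qq_nonneg S z)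
  by_contra hne
  have h3 := mul_nonneg (neg_nonneg.2 (not_lt.1 hne)) (by linarith : 0 ≤ 1 + (S.e : E → ℝ) z * (S.qq : E → ℝ) z)
  linarith

theorem t_le (z : E) : (t : E → ℝ) z ≤ 1 := by
  have h1 := t_fn S ht z
  have h2 := mul_nonneg (he z) (qq_nonneg S z)
  have h3 := mul_nonneg (t_pos S ht he z).le h2
  nlinarith

theorem t_m (z : E) : (t : E → ℝ) z * ((S.e : E → ℝ) z * (S.qq : E → ℝ) z) ≤ 1 := by
  have h1 := t_fn S ht z
  have h3 := t_pos S ht he z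
  nlinarith

theorem t_dq (z : E) : ∑ k, (ds (S.a k) t : E → ℝ) z ^ 2 ≤
    4 * ((S.e : E → ℝ) z * (t : E → ℝ) z) := by
  have h1 : ∀ k, (ds (S.a k) t : E → ℝ) z ^ 2 = 4 * ((t : E → ℝ) z ^ 4 *
      (S.e : E → ℝ) z ^ 2 * ((S.q k : E → ℝ) z * (S.q k : E → ℝ) z)) := by
    intro k
    rw [a_t S ht]
    change (-(2 * ((t : E → ℝ) z * (t : E → ℝ) z * ((S.e : E → ℝ) z * (S.q k : E → ℝ) z)))) ^ 2 = _
    ring
  simp only [h1, ← Finset.mul_sum]
  rw [← qq_fn]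
  have h2 := t_pos S ht he z
  have h3 := t_le S ht he z
  have h4 := t_m S ht he z
  have h5 : (t : E → ℝ) z ^ 4 * (S.e : E → ℝ) z ^ 2 * (S.qq : E → ℝ) z =
      ((S.e : E → ℝ) z * (t : E → ℝ) z) * ((t : E → ℝ) z ^ 2 * ((t : E → ℝ) z *
        ((S.e : E → ℝ) z * (S.qq : E → ℝ) z))) := by ring
  have h6 : (t : E → ℝ) z ^ 2 * ((t : E → ℝ) z * ((S.e : E → ℝ) z * (S.qq : E → ℝ) z)) ≤ 1 := by
    have h7 : 0 ≤ (t : E → ℝ) z * ((S.e : E → ℝ) z * (S.qq : E → ℝ) z) :=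
      mul_nonneg h2.le (mul_nonneg (he z) (qq_nonneg S z))
    calc (t : E → ℝ) z ^ 2 * ((t : E → ℝ) z * ((S.e : E → ℝ) z * (S.qq : E → ℝ) z))
        ≤ 1 * ((t : E → ℝ) z * ((S.e : E → ℝ) z * (S.qq : E → ℝ) z)) := by
          gcongr
          exact pow_le_one₀ h2.le h3
      _ ≤ 1 := by rw [one_mul]; exact h4
  rw [h5]
  have h8 := mul_nonneg (he z) h2.le
  nlinarith [mul_le_mul_of_nonneg_left h6 h8]

/-- First derivatives with the weight `t²`. -/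
theorem D_t2 (h : SW π) : ∑ k, nn μ (t * t) (S.D k h) ≤
    nn μ (S.e' * (t * t * t)) (S.D2 h) + 41 * nn μ (S.e * t) h := by
  have key := B.L0 μ (c := fun _ : ι => (1 : ℝ)) (v := S.a) (W := S.w) (θ := t * t)
    (m := S.e * (S.e * S.qq)) (g := (16 : ℝ) • (S.e * (t * t * t))) (fun _ => zero_le_one)
    (fun z => mul_self_nonneg _)
    (fun z => mul_nonneg (by norm_num : (0 : ℝ) ≤ 16) (mul_nonneg (he z)
      (mul_nonneg (mul_self_nonneg _) (t_pos S ht he z).le)))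
    (fun z => ?_) (fun z => ?_) (θ₁ := S.e' * (t * t * t)) (θ₂ := S.e * t)
    (fun z => mul_nonneg (e'_nonneg S he z)
      (mul_nonneg (mul_self_nonneg _) (t_pos S ht he z).le))
    (fun z => mul_nonneg (he z) (t_pos S ht he z).le) (fun z => ?_) h
  · have e1 : ∀ k, Ak S.a S.w k = S.D k := fun k => (S.D_eq k).symm
    have e2 : Sk S.a (fun _ : ι => (1 : ℝ)) S.w = S.D2 := by
      rw [Sk, Dat.D2]
      exact Finset.sum_congr rfl fun k _ => by rw [e1, one_smul]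
    simp only [e1, e2, one_mul] at key
    refine key.trans (add_le_add le_rfl ?_)
    rw [← nn_smul]
    refine nn_mono μ (fun z => ?_) h
    change 8 * (((t : E → ℝ) z * (t : E → ℝ) z) * ((S.e : E → ℝ) z * ((S.e : E → ℝ) z *
      (S.qq : E → ℝ) z))) + 2 * (16 * ((S.e : E → ℝ) z * ((t : E → ℝ) z * (t : E → ℝ) z *
      (t : E → ℝ) z))) + (S.e : E → ℝ) z * (t : E → ℝ) z ≤ 41 * ((S.e : E → ℝ) z * (t : E → ℝ) z)
    have h2 := t_pos S ht he z
    have h3 := t_le S ht he z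
    have h4 := t_m S ht he z
    have h5 := mul_nonneg (he z) h2.le
    have h6 := mul_le_mul_of_nonneg_left h4 h5
    have h7 : (t : E → ℝ) z * (t : E → ℝ) z ≤ 1 := by nlinarith
    have h8 := mul_le_mul_of_nonneg_left h7 h5
    nlinarith
  · have e1 : ∀ k, (ds (S.a k) S.w : E → ℝ) z = (S.e : E → ℝ) z * (S.q k : E → ℝ) z := by
      intro k
      have : ds (S.a k) S.w = S.e * S.q k := by
        rw [Dat.w, map_add, map_smul, ds_mul, S.ae, S.aqq, S.aφ, zero_mul, zero_add, add_zero]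
        have : S.e * (2 * S.q k) = (2 : ℝ) • (S.e * S.q k) := by
          rw [two_smul]; ring
        rw [this, smul_smul]; norm_num
      rw [this]; rfl
    simp only [e1, one_mul]
    have e2 : ∑ k, ((S.e : E → ℝ) z * (S.q k : E → ℝ) z) ^ 2 = (S.e : E → ℝ) z *
        ((S.e : E → ℝ) z * (S.qq : E → ℝ) z) := by
      rw [qq_fn, Finset.mul_sum, Finset.mul_sum]
      exact Finset.sum_congr rfl fun k _ => by ring
    rw [e2]
    exact le_rfl
  · have h1 : ∀ k, (ds (S.a k) (t * t) : E → ℝ) z ^ 2 = 4 * (t : E → ℝ) z ^ 2 *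
        (ds (S.a k) t : E → ℝ) z ^ 2 := by
      intro k
      have : (ds (S.a k) (t * t) : E → ℝ) z = 2 * ((t : E → ℝ) z * (ds (S.a k) t : E → ℝ) z) := by
        rw [ds_mul]
        change (ds (S.a k) t : E → ℝ) z * (t : E → ℝ) z + (t : E → ℝ) z *
          (ds (S.a k) t : E → ℝ) z = _
        ring
      rw [this]; ring
    simp only [h1, one_mul, ← Finset.mul_sum]
    have h2 : ∑ k, (ds (S.a k) t : E → ℝ) z ^ 2 = 4 * ((t : E → ℝ) z ^ 4 *
      (S.e : E → ℝ) z ^ 2 * (S.qq : E → ℝ) z) := by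
      have h3 : ∀ k, (ds (S.a k) t : E → ℝ) z ^ 2 = 4 * ((t : E → ℝ) z ^ 4 *
        (S.e : E → ℝ) z ^ 2 * ((S.q k : E → ℝ) z * (S.q k : E → ℝ) z)) := by
        intro k
        rw [a_t S ht]
        change (-(2 * ((t : E → ℝ) z * (t : E → ℝ) z *
          ((S.e : E → ℝ) z * (S.q k : E → ℝ) z)))) ^ 2 = _
        ring
      simp only [h3, ← Finset.mul_sum]
      rw [← qq_fn]
    rw [h2]
    change _ ≤ 16 * ((S.e : E → ℝ) z * ((t : E → ℝ) z * (t : E → ℝ) z * (t : E → ℝ) z)) *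
      ((t : E → ℝ) z * (t : E → ℝ) z)
    have h4 := t_m S ht he z
    have h5 : 0 ≤ (S.e : E → ℝ) z * (t : E → ℝ) z ^ 5 :=
      mul_nonneg (he z) (pow_nonneg (t_pos S ht he z).le _)
    nlinarith [mul_le_mul_of_nonneg_left h4 h5]
  · have h1 : (S.e : E → ℝ) z * (S.e' : E → ℝ) z = 1 :=
      congrArg (fun g : Mu π => (g : E → ℝ) z) S.inv
    change ((t : E → ℝ) z * (t : E → ℝ) z) ^ 2 ≤ ((S.e' : E → ℝ) z * ((t : E → ℝ) z *
      (t : E → ℝ) z * (t : E → ℝ) z)) * ((S.e : E → ℝ) z * (t : E → ℝ) z)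
    have : ((S.e' : E → ℝ) z * ((t : E → ℝ) z * (t : E → ℝ) z * (t : E → ℝ) z)) *
        ((S.e : E → ℝ) z * (t : E → ℝ) z) =
        ((S.e : E → ℝ) z * (S.e' : E → ℝ) z) * (t : E → ℝ) z ^ 4 := by ring
    rw [this, h1]
    apply le_of_eq
    ring

omit he in
/-- `D_k (t h)`. -/
theorem D_tml (k : ι) (h : SW π) : S.D k (ml t h) = ml t (S.D k h) + ml (ds (S.a k) t) h := by
  have h1 : S.D k * ml t = ml t * S.D k + ml (ds (S.a k) t) := by
    rw [Dat.D, add_mul, mul_add, dv_ml, mlc (S.e * S.q k) t]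
    abel
  exact LinearMap.congr_fun h1 h

/-- The lower bound of `⟨E² B2 y, y⟩` for `B2 y = h`. -/
theorem N_one (hn : 3 ≤ Fintype.card ι) (y : SW π) :
    nn μ (S.e * t) ((S.osc μ).B2 y) ≤ ((Fintype.card ι : ℝ) + 88) *
      ip μ (S.EE (S.EE ((S.osc μ).B2 y))) y +
      2 / ((Fintype.card ι : ℝ) + 88) * nn μ (S.e' * (t * t * t)) (S.D2 ((S.osc μ).B2 y)) := by
  set h := (S.osc μ).B2 y with hh
  set N : ℝ := (Fintype.card ι : ℝ) + 88 with hN
  have h3 : (3 : ℝ) ≤ Fintype.card ι := by exact_mod_cast hn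
  have hNp : 0 < N := by rw [hN]; linarith
  set δ : ℝ := 1 / N with hδ
  have hδp : 0 < δ := by rw [hδ]; positivity
  have P := S.osc_pos μ he
  have k1 := M_test P hn y (δ • S.EI (ml t h))
  have e1 : ip μ (S.EE (S.EE h)) (δ • S.EI (ml t h)) = δ * nn μ (S.e * t) h := by
    have a1 : ip μ (S.EE (S.EE h)) (S.EI (ml t h)) = ip μ (S.EE h) (ml t h) := by
      have b1 : ip μ (S.EE (S.EE h)) (S.EI (ml t h)) = ip μ (S.EE h) (S.EE (S.EI (ml t h))) :=
        adj_ml (μ := μ) S.e _ _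
      have b2 : S.EE (S.EI (ml t h)) = ml t h := LinearMap.congr_fun S.EE_EI (ml t h)
      rw [b1, b2]
    rw [map_smul, smul_eq_mul, a1]
    congr 1
    exact ip_ml2 μ S.e t h
  have e2 : ip μ (S.EE (S.EE ((S.osc μ).B2 (δ • S.EI (ml t h))))) (δ • S.EI (ml t h)) =
      δ ^ 2 * ip μ ((S.osc μ).B2 (ml t h)) (ml t h) := by
    have hI := S.osc_inv μ
    have hB : (S.osc μ).B2 (S.EI (ml t h)) = S.EI ((S.osc μ).B2 (ml t h)) :=
      (hI.comm (S.osc μ).EB2 (ml t h)).symm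
    have a1 : S.EE (S.EE (S.EI ((S.osc μ).B2 (ml t h)))) = S.EE ((S.osc μ).B2 (ml t h)) := by
      rw [show S.EE (S.EI ((S.osc μ).B2 (ml t h))) = (S.osc μ).B2 (ml t h) from
        LinearMap.congr_fun S.EE_EI _]
    have a2 : ip μ (S.EE ((S.osc μ).B2 (ml t h))) (S.EI (ml t h)) =
        ip μ ((S.osc μ).B2 (ml t h)) (ml t h) := by
      have b1 : ip μ (S.EE ((S.osc μ).B2 (ml t h))) (S.EI (ml t h)) =
          ip μ ((S.osc μ).B2 (ml t h)) (S.EE (S.EI (ml t h))) := adj_ml (μ := μ) S.e _ _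
      have b2 : S.EE (S.EI (ml t h)) = ml t h := LinearMap.congr_fun S.EE_EI (ml t h)
      rw [b1, b2]
    rw [map_smul (S.osc μ).B2, hB, map_smul S.EE, map_smul S.EE, a1, map_smul (ip μ),
      LinearMap.smul_apply, map_smul, smul_eq_mul, smul_eq_mul, a2]
    ring
  have e3 : ip μ ((S.osc μ).B2 (ml t h)) (ml t h) ≤
      2 * nn μ (S.e' * (t * t * t)) (S.D2 h) + N * nn μ (S.e * t) h := by
    rw [B2_nn]
    have a1 : ∑ k, nn μ 1 (S.D k (ml t h)) ≤ 2 * ∑ k, nn μ (t * t) (S.D k h) +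
        2 * nn μ (∑ k, ds (S.a k) t * ds (S.a k) t) h := by
      rw [nn_sum, Finset.mul_sum, Finset.mul_sum, ← Finset.sum_add_distrib]
      refine Finset.sum_le_sum fun k _ => ?_
      rw [D_tml S ht]
      refine (nn_add_le μ (fun z => zero_le_one) _ _).trans (le_of_eq ?_)
      rw [nn_ml, nn_ml, one_mul, one_mul]
    have a2 : nn μ (∑ k, ds (S.a k) t * ds (S.a k) t) h ≤ 4 * nn μ (S.e * t) h := by
      rw [← nn_smul]
      refine nn_mono μ (fun z => ?_) h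
      have b1 : ((∑ k, ds (S.a k) t * ds (S.a k) t : Mu π) : E → ℝ) z =
          ∑ k, (ds (S.a k) t : E → ℝ) z ^ 2 := by
        simp only [AddSubmonoidClass.coe_finsetSum, MulMemClass.coe_mul, Finset.sum_apply,
          Pi.mul_apply, sq]
      rw [b1]
      exact t_dq S ht he z
    have a3 : nn μ S.e (ml t h) ≤ nn μ (S.e * t) h := by
      rw [nn_ml]
      refine nn_mono μ (fun z => ?_) h
      change (S.e : E → ℝ) z * ((t : E → ℝ) z * (t : E → ℝ) z) ≤ (S.e : E → ℝ) z * (t : E → ℝ) z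
      have b2 := t_pos S ht he z
      have b3 := t_le S ht he z
      have b5 := mul_nonneg (he z) b2.le
      nlinarith [mul_le_mul_of_nonneg_left b3 b5]
    have a4 := D_t2 μ S ht he h
    have a5 := mul_le_mul_of_nonneg_left a3 (by linarith : (0 : ℝ) ≤ (Fintype.card ι : ℝ) - 2)
    rw [hN]
    linarith
  have e4 : 2 * (δ * nn μ (S.e * t) h) - δ ^ 2 * (2 * nn μ (S.e' * (t * t * t)) (S.D2 h) +
      N * nn μ (S.e * t) h) ≤ ip μ (S.EE (S.EE h)) y := by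
    have a1 := mul_le_mul_of_nonneg_left e3 (sq_nonneg δ)
    have a2 : 2 * ip μ (S.EE (S.EE h)) (δ • S.EI (ml t h)) -
      ip μ (S.EE (S.EE ((S.osc μ).B2 (δ • S.EI (ml t h))))) (δ • S.EI (ml t h)) ≤
      ip μ (S.EE (S.EE h)) y := k1
    rw [e1, e2] at a2
    linarith
  have e5 : δ * N = 1 := by rw [hδ]; field_simp
  have e6 : N * (2 * (δ * nn μ (S.e * t) h) - δ ^ 2 * (2 * nn μ (S.e' * (t * t * t)) (S.D2 h) +
      N * nn μ (S.e * t) h)) = nn μ (S.e * t) h - 2 * δ * nn μ (S.e' * (t * t * t)) (S.D2 h) := by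
    linear_combination (2 * nn μ (S.e * t) h - 2 * δ * nn μ (S.e' * (t * t * t)) (S.D2 h) -
      (δ * N + 1) * nn μ (S.e * t) h) * e5
  have e7 := mul_le_mul_of_nonneg_left e4 hNp.le
  rw [e6] at e7
  have e8 : 2 / N = 2 * δ := by rw [hδ]; ring
  rw [e8]
  linarith

/-- **The `N`-term of the core.** -/
theorem N_term (hn : 3 ≤ Fintype.card ι) (f : SW π) :
    nn μ (S.e * t * G2 S) ((S.osc μ).B2 f) ≤ ((Fintype.card ι : ℝ) + 88) *
      Nm (S.osc μ) (fun i => ml (S.φ1 i)) f +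
      2 / ((Fintype.card ι : ℝ) + 88) * nn μ (S.e' * (t * t * t) * G2 S)
        (S.D2 ((S.osc μ).B2 f)) := by
  have h1 : ∀ j, nn μ (S.e * t * ((S.φ1 j + (2 : ℝ) • S.l1 j) * (S.φ1 j + (2 : ℝ) • S.l1 j)))
      ((S.osc μ).B2 f) ≤ ((Fintype.card ι : ℝ) + 88) * ip μ (S.EE (S.EE ((S.osc μ).B2
        (Gj (S.osc μ) (fun i => ml (S.φ1 i)) j f)))) (Gj (S.osc μ) (fun i => ml (S.φ1 i)) j f) +
      2 / ((Fintype.card ι : ℝ) + 88) * nn μ (S.e' * (t * t * t) *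
        ((S.φ1 j + (2 : ℝ) • S.l1 j) * (S.φ1 j + (2 : ℝ) • S.l1 j))) (S.D2 ((S.osc μ).B2 f)) := by
    intro j
    have ha : ∀ k, ds (S.a k) (S.φ1 j + (2 : ℝ) • S.l1 j) = 0 := fun k => by
      rw [map_add, map_smul, S.aφ1, S.al1, smul_zero, add_zero]
    have k1 := N_one μ S ht he hn (Gj (S.osc μ) (fun i => ml (S.φ1 i)) j f)
    have e1 : (S.osc μ).B2 (Gj (S.osc μ) (fun i => ml (S.φ1 i)) j f) =
        ml (S.φ1 j + (2 : ℝ) • S.l1 j) ((S.osc μ).B2 f) := by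
      rw [← Gj_eq μ S, Gj, Gj, map_add, map_smul, fB2 (fd μ S) (S.osc_inv μ), (S.osc μ).LB2]
    have e2 : S.D2 (ml (S.φ1 j + (2 : ℝ) • S.l1 j) ((S.osc μ).B2 f)) =
        ml (S.φ1 j + (2 : ℝ) • S.l1 j) (S.D2 ((S.osc μ).B2 f)) :=
      LinearMap.congr_fun (S.D2_ml ha) _
    rw [e1, e2, nn_ml, nn_ml] at k1
    rw [e1]
    exact k1
  have h2 := Finset.sum_le_sum fun j (_ : j ∈ Finset.univ) => h1 j
  rw [Finset.sum_add_distrib, ← Finset.mul_sum, ← Finset.mul_sum] at h2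
  rw [G2, Finset.mul_sum, Finset.mul_sum, nn_sum, nn_sum]
  exact h2

end

end Vale.Agent.P088.R2.H676.C
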