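import Vale.Agent.P088.R2.H676.C.Nt
import Vale.Agent.P088.R2.H676.C.Mui
import Vale.Agent.P088.R2.H676.C.Hom
import Vale.Agent.P088.R2.H961.B.Emb
import Vale.Agent.P088.R2.H961.B.EnT
import Vale.Agent.P088.R2.H464.EP.Inst2

/-!
# P088, local step: the core inequality on test functions
-/

set_option linter.unusedSectionVars false

open MeasureTheory Set
open scoped ContDiff

noncomputable section

namespace Vale.Agent.P088.R2.H676.C

open Vale.Agent.P088.HY.H593W
open Vale.Agent.P088.HY.H593W.Osc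
open Vale.Agent.P088.R2.H961
open Vale.Agent.P088.R2.H961.S
open Vale.Agent.P088.R2.H464
open Vale.Agent.P088.R2.H961.B (nn)

variable {ι E P : Type} [Fintype ι] [DecidableEq ι] [NormedAddCommGroup E] [NormedSpace ℝ E]
  [NormedAddCommGroup P] [NormedSpace ℝ P] {π : E →L[ℝ] P}

/-- The data on test functions. -/
def teD (S : Dat ι π) : EP.Dat ι E where
  a := S.a
  b := S.b
  q i := sm π (S.q i)
  l := sm π S.l
  φ := sm π S.φ
  e := sm π S.e
  e' := sm π S.e'
  aq i j := by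
    rw [← sm_ds, S.aq]
    split <;> simp
  bq i j := by rw [← sm_ds, S.bq, map_zero]
  al i := by rw [← sm_ds, S.al, map_zero]
  aφ i := by rw [← sm_ds, S.aφ, map_zero]
  inv := by rw [← map_mul, S.inv, map_one]
  ae i := by rw [← sm_ds, S.ae, map_zero]
  be i := by rw [← sm_ds, S.be, map_mul, map_mul, sm_ds, map_ofNat]

section
variable (S : Dat ι π)

theorem te_l1 (i : ι) : (teD S).l1 i = sm π (S.l1 i) := rfl
theorem te_l2 (i j : ι) : (teD S).l2 i j = sm π (S.l2 i j) := rfl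
theorem te_φ1 (i : ι) : (teD S).φ1 i = sm π (S.φ1 i) := rfl
theorem te_φ2 (i j : ι) : (teD S).φ2 i j = sm π (S.φ2 i j) := rfl
theorem te_qq : (teD S).qq = sm π S.qq := by
  rw [EP.Dat.qq, Dat.qq, map_sum]
  exact Finset.sum_congr rfl fun k _ => (map_mul _ _ _).symm
theorem te_g (i : ι) : (teD S).g i = sm π (S.g i) := by
  rw [EP.Dat.g, Dat.g, map_add, map_mul, map_mul, te_qq]; rfl

theorem te_eq (i : ι) : (teD S).e * (teD S).q i = sm π (S.e * S.q i) := (map_mul _ _ _).symm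

theorem cor_D (i : ι) : Cor π ((teD S).D i) (S.D i) := by
  rw [EP.Dat.D, te_eq]
  exact (cor_dv (S.a i)).add (cor_ml (S.e * S.q i))
theorem cor_Ds (i : ι) : Cor π ((teD S).Ds i) (S.Ds i) := by
  rw [EP.Dat.Ds, te_eq]
  exact (cor_ml (S.e * S.q i)).sub (cor_dv (S.a i))
theorem cor_K (i : ι) : Cor π ((teD S).K i) (S.K i) := by
  rw [EP.Dat.K, te_g]
  exact (cor_dv (S.b i)).add (cor_ml (S.g i))
theorem cor_Ks (i : ι) : Cor π ((teD S).Ks i) (S.Ks i) := by
  rw [EP.Dat.Ks, te_g]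
  exact (cor_ml (S.g i)).sub (cor_dv (S.b i))
theorem cor_D2 : Cor π (teD S).D2 S.D2 := Cor.sum fun i _ => (cor_D S i).mul (cor_D S i)
theorem cor_Ds2 : Cor π (teD S).Ds2 S.Ds2 := Cor.sum fun i _ => (cor_Ds S i).mul (cor_Ds S i)
theorem cor_EE : Cor π (teD S).EE S.EE := cor_ml S.e
theorem cor_EI : Cor π (teD S).EI S.EI := cor_ml S.e'
theorem cor_L (i : ι) : Cor π ((teD S).L i) (S.L i) := cor_ml (S.l1 i)
theorem cor_LL (i j : ι) : Cor π ((teD S).LL i j) (S.LL i j) := cor_ml (S.l2 i j)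
theorem cor_PP (i j : ι) : Cor π ((teD S).PP i j) (S.PP i j) := cor_ml (S.φ2 i j)
theorem cor_v (i : ι) : Cor π ((teD S).v i) (S.v i) :=
  (cor_K S i).sub ((((cor_L S i).mul (cor_EI S)).mul (cor_D2 S)).smul _)
theorem cor_vs (i : ι) : Cor π ((teD S).vs i) (S.vs i) :=
  (cor_Ks S i).sub (((cor_Ds2 S).mul ((cor_L S i).mul (cor_EI S))).smul _)
theorem cor_BB : Cor π (teD S).BB S.BB :=
  (Cor.sum fun i _ => (cor_Ds S i).mul (cor_D S i)).add ((cor_EE S).smul _)
theorem cor_C (i j : ι) : Cor π ((2 : ℝ) • (teD S).PP i j + EP.ml ((teD S).l2 i j * (teD S).e') *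
    (teD S).BB) ((2 : ℝ) • S.PP i j + ml (S.l2 i j * S.e') * S.BB) := by
  refine ((cor_PP S i j).smul 2).add (Cor.mul ?_ (cor_BB S))
  have : (teD S).l2 i j * (teD S).e' = sm π (S.l2 i j * S.e') := by rw [map_mul]; rfl
  rw [this]
  exact cor_ml (S.l2 i j * S.e')

end

variable [MeasurableSpace E] [BorelSpace E] [FiniteDimensional ℝ E]
  (μ : Measure E) [μ.IsAddHaarMeasure]

/-- The embedding is a morphism. -/
theorem te_hom (S : Dat ι π) : OH ((teD S).osc μ) (S.osc μ) (emb π) where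
  ip x y := emb_ip μ x y
  D i := cor_D S i
  Ds i := cor_Ds S i
  v i := cor_v S i
  vs i := cor_vs S i
  L i := cor_L S i
  LL i k := cor_LL S i k
  C i k := cor_C S i k
  E := cor_EE S

theorem te_nn (θ : Mu π) (f : EP.TE E) : nn μ θ (emb π f) = B.T.nn μ (sm π θ) f := rfl

end Vale.Agent.P088.R2.H676.C
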